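import Crest.Agent.S0010Lib.Geom

/-!
# S0010 library: final assembly lemmas.
-/

set_option autoImplicit false

namespace Crest.Agent.S0010Lib

open Crest.NumberTheoryR.MilnorK

section Final

variable {K L : Type*} [Field K] [Field L] {p : ℕ} [Fact p.Prime] [CharP K p] [CharP L p]

lemma zmod_smul_eq_nsmul {M : Type*} [Field M] (r : ZMod p) (x : KOne M p) :
    r • x = r.val • x := by
  conv_lhs => rw [← ZMod.natCast_zmod_val r]
  exact Nat.cast_smul_eq_nsmul (ZMod p) r.val x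

lemma natCast_ne_zero_of_zmod {n : ℕ} (h : (n : ZMod p) ≠ 0) : (n : L) ≠ 0 := by
  intro h0
  apply h
  rw [ZMod.natCast_eq_zero_iff]
  exact (CharP.cast_eq_zero_iff L p n).mp h0

lemma zmod_ne_zero_of_natCast {n : ℕ} (h : (n : L) ≠ 0) : (n : ZMod p) ≠ 0 := by
  intro h0
  apply h
  rw [ZMod.natCast_eq_zero_iff] at h0
  exact (CharP.cast_eq_zero_iff L p n).mpr h0

/-- Rewriting the class of an image of a unit. -/
lemma cls_map_eq (α : K ≃+* L) (u : K) (hu : u ≠ 0) :
    cls L p (Units.map α.toRingHom.toMonoidHom (Units.mk0 u hu)) = cl p (α u) := by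
  have h := cl_unit (p := p) (Units.map α.toRingHom.toMonoidHom (Units.mk0 u hu))
  exact h.symm

lemma cls_eq_cl (u : K) (hu : u ≠ 0) :
    cls K p (Units.mk0 u hu) = cl p u := (cl_of_ne hu).symm

lemma toV_cl (Θ : KOne K p ≃ₗ[ZMod p] KOne L p) (u : K) (hu : u ≠ 0) :
    toV Θ (cl p u) = Θ (cls K p (Units.mk0 u hu)) := by
  rw [cl_of_ne hu]
  rfl

lemma inv_val_smul (c₁ : ZMod p) (hc₁ : c₁ ≠ 0) (x : KOne L p) :
    (c₁⁻¹).val • (c₁ • x) = x := by
  rw [← zmod_smul_eq_nsmul, smul_smul, inv_mul_cancel₀ hc₁, one_smul]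

/-- From the scalar form to the natural multiple form. -/
lemma cl_map_of_smul (Θ : KOne K p ≃ₗ[ZMod p] KOne L p) (α₁ : K ≃+* L) {c₁ : ZMod p}
    (hc₁ : c₁ ≠ 0)
    (hα₁ : ∀ u : Kˣ, Θ (cls K p u) = c₁ • cls L p (Units.map α₁.toRingHom.toMonoidHom u)) :
    ∃ n₁ : ℕ, (n₁ : L) ≠ 0 ∧ ∀ u : K, cl p (α₁ u) = n₁ • toV Θ (cl p u) := by
  have hF : Fact p.Prime := inferInstance
  have hinv : c₁⁻¹ ≠ 0 := inv_ne_zero hc₁
  refine ⟨(c₁⁻¹).val, natCast_ne_zero_of_zmod (by rw [ZMod.natCast_zmod_val]; exact hinv), ?_⟩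
  intro u
  by_cases hu : u = 0
  · subst hu
    simp
  · rw [toV_cl Θ u hu, hα₁, ← cls_map_eq α₁ u hu]
    exact (inv_val_smul c₁ hc₁ _).symm

/-- Uniqueness of the ring isomorphism. -/
theorem ringEquiv_unique (Θ : KOne K p ≃ₗ[ZMod p] KOne L p) {n n₁ : ℕ} (hn : (n : L) ≠ 0)
    (hn₁ : (n₁ : L) ≠ 0) (α α₁ : K ≃+* L)
    (hα : ∀ u : K, cl p (α u) = n • toV Θ (cl p u))
    (hα₁ : ∀ u : K, cl p (α₁ u) = n₁ • toV Θ (cl p u))
    (hL' : ∃ a b : L, ¬ Dep a b) : α₁ = α := by
  have hNC : ∀ x : K, cl p (α x) ≠ 0 → α₁ x = α x := by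
    intro x hx
    have hx0 : α x ≠ 0 := by
      intro h
      rw [h, cl_zero] at hx
      exact hx rfl
    have hx1 : 1 + α x ≠ 0 := one_add_ne_zero_of_NC hx
    have hx00 : x ≠ 0 := by
      intro h
      simp [h] at hx0
    have hx11 : 1 + x ≠ 0 := by
      intro h
      apply hx1
      rw [← map_one α, ← map_add, h, map_zero]
    have hy0 : α₁ x ≠ 0 := by
      simpa using hx00
    have hy1 : 1 + α₁ x ≠ 0 := by
      intro h
      apply hx11
      apply α₁.injective
      rw [map_add, map_one, h, map_zero]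
    have h1 : cl p (1 + α x) = n • toV Θ (cl p (1 + x)) := by
      rw [← hα (1 + x), map_add, map_one]
    have h2 : cl p (1 + α₁ x) = n₁ • toV Θ (cl p (1 + x)) := by
      rw [← hα₁ (1 + x), map_add, map_one]
    have := uniq (ξ := toV Θ (cl p x)) (η := toV Θ (cl p (1 + x))) hn hn₁ hx0 hx1 hy0 hy1
      (hα x) h1 (hα₁ x) h2 hx
    exact this.1.symm
  obtain ⟨a, b, hab⟩ := hL'
  have ha : cl p a ≠ 0 := not_dep_NC_left hab
  let w := α.symm a
  have hw : cl p (α w) ≠ 0 := by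
    simpa [w] using ha
  ext x
  by_cases hx : cl p (α x) = 0
  · have h1 : cl p (α x + α w) ≠ 0 := NC_add_const hx hw
    have h2 : α₁ (x + w) = α (x + w) := hNC _ (by rwa [map_add])
    have h3 := hNC w hw
    rw [map_add, map_add, h3] at h2
    exact add_right_cancel h2
  · exact hNC x hx

end Final

/-- A ring isomorphism maps the algebraically closed base onto the algebraically closed base. -/
theorem map_base_eq {K L : Type*} [Field K] [Field L] (p : ℕ) [Fact p.Prime] [CharP K p] [CharP L p]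
    (k : Subfield K) (l : Subfield L) [IsAlgClosed k] [IsAlgClosed l]
    (hK : ∃ s : Finset K, Subfield.closure ((k : Set K) ∪ (s : Set K)) = ⊤)
    (hL : ∃ s : Finset L, Subfield.closure ((l : Set L) ∪ (s : Set L)) = ⊤) (α : K ≃+* L) :
    k.map α.toRingHom = l := by
  have hp : p.Prime := Fact.out
  apply le_antisymm
  · rintro _ ⟨a, ha, rfl⟩
    apply mem_of_forall_root (p := p) l hL
    intro n
    obtain ⟨c, hc⟩ := IsAlgClosed.exists_pow_nat_eq (⟨a, ha⟩ : k) (n := p ^ n) (pow_pos hp.pos n)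
    refine ⟨α (c : K), ?_⟩
    rw [← map_pow]
    have h2 : ((c : K)) ^ (p ^ n) = a := by
      have := congrArg (Subtype.val) hc
      simpa using this
    rw [h2]
    rfl
  · intro b hb
    have h : α.symm b ∈ k := by
      apply mem_of_forall_root (p := p) k hK
      intro n
      obtain ⟨c, hc⟩ := IsAlgClosed.exists_pow_nat_eq (⟨b, hb⟩ : l) (n := p ^ n) (pow_pos hp.pos n)
      refine ⟨α.symm (c : L), ?_⟩
      rw [← map_pow]
      have h2 : ((c : L)) ^ (p ^ n) = b := by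
        have := congrArg (Subtype.val) hc
        simpa using this
      rw [h2]
    exact ⟨α.symm b, h, by simp⟩

end Crest.Agent.S0010Lib
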