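import Mathlib
import Crest.Prelude.Def_MilnorK

/-!
# S0010 library, part 1: derivations, log-derivatives on `KOne`, the relation `Perp`.
-/

set_option autoImplicit false

namespace Crest.Agent.S0010Lib

open Crest.NumberTheoryR.MilnorK
open Polynomial

section Der

variable {M : Type*} [Field M] {p : ℕ} [Fact p.Prime] [CharP M p]

/-- Derivations of a field (over `ℤ`, i.e. just additive Leibniz maps). -/
abbrev Der (M : Type*) [Field M] := Derivation ℤ M M

omit [Fact p.Prime] in
lemma der_pow_char (D : Der M) (c : M) : D (c ^ p) = 0 := by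
  rw [Derivation.leibniz_pow]
  simp

/-- Constants lemma: a subfield containing all `p`-th powers is cut out by the derivations
vanishing on it. -/
theorem exists_der_of_not_mem (E : Subfield M) (hE : ∀ c : M, c ^ p ∈ E) {w : M} (hw : w ∉ E) :
    ∃ D : Der M, (∀ e ∈ E, D e = 0) ∧ D w ≠ 0 := by
  classical
  have hp : p.Prime := Fact.out
  let S : Set (Subfield M) := {F | E ≤ F ∧ w ∉ F}
  have hS : ∀ c ⊆ S, IsChain (· ≤ ·) c → ∀ y ∈ c, ∃ ub ∈ S, ∀ z ∈ c, z ≤ ub := by
    intro c hcS hc y hy
    have hne : c.Nonempty := ⟨y, hy⟩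
    refine ⟨sSup c, ⟨le_trans (hcS hy).1 (le_sSup hy), ?_⟩, fun z hz => le_sSup hz⟩
    intro hmem
    rw [Subfield.mem_sSup_of_directedOn hne hc.directedOn] at hmem
    obtain ⟨F, hF, hwF⟩ := hmem
    exact (hcS hF).2 hwF
  obtain ⟨E₁, hE₁, hmax⟩ := zorn_le_nonempty₀ S hS E ⟨le_rfl, hw⟩
  have hE₁S : E ≤ E₁ ∧ w ∉ E₁ := hmax.prop
  have hw₁ : w ∉ E₁ := hE₁S.2
  have hpow₁ : ∀ c : M, c ^ p ∈ E₁ := fun c => hE₁ (hE c)
  have hchar : CharP E₁ p := (algebraMap E₁ M).charP (algebraMap E₁ M).injective p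
  -- minimal polynomials
  have hmin : ∀ u : M, u ∉ E₁ →
      minpoly E₁ u = X ^ p - C (⟨u ^ p, hpow₁ u⟩ : E₁) := by
    intro u hu
    have hirr : Irreducible (X ^ p - C (⟨u ^ p, hpow₁ u⟩ : E₁) : E₁[X]) := by
      apply X_pow_sub_C_irreducible_of_prime hp
      intro b hb
      have h1 : (b : M) ^ p = u ^ p := by
        have := congrArg (Subtype.val) hb
        simpa using this
      have h2 : (b : M) = u := frobenius_inj M p h1
      exact hu (h2 ▸ b.2)
    have hmon : (X ^ p - C (⟨u ^ p, hpow₁ u⟩ : E₁) : E₁[X]).Monic :=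
      monic_X_pow_sub_C _ hp.ne_zero
    refine (minpoly.eq_of_irreducible_of_monic hirr ?_ hmon).symm
    simp [aeval_def, eval₂_sub, eval₂_pow, eval₂_X, eval₂_C]
    exact sub_self _
  have hint : ∀ u : M, IsIntegral E₁ u := by
    intro u
    refine ⟨X ^ p - C (⟨u ^ p, hpow₁ u⟩ : E₁), monic_X_pow_sub_C _ hp.ne_zero, ?_⟩
    simp [eval₂_sub, eval₂_pow, eval₂_X, eval₂_C]
    exact sub_self _
  have hfin : ∀ u : M, u ∉ E₁ → Module.finrank E₁ (IntermediateField.adjoin E₁ {u}) = p := by
    intro u hu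
    rw [IntermediateField.adjoin.finrank (hint u), hmin u hu, natDegree_X_pow_sub_C]
  -- every element lies in `E₁⟮w⟯`
  have htop : IntermediateField.adjoin E₁ {w} = ⊤ := by
    rw [eq_top_iff]
    intro u _
    by_cases hu : u ∈ E₁
    · exact (IntermediateField.adjoin E₁ {w}).algebraMap_mem ⟨u, hu⟩
    have hwu : w ∈ IntermediateField.adjoin E₁ {u} := by
      by_contra hwu
      let F₁ : Subfield M := (IntermediateField.adjoin E₁ {u}).toSubfield
      have hF₁ : F₁ ∈ S := by
        refine ⟨fun e he => ?_, hwu⟩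
        exact (IntermediateField.adjoin E₁ {u}).algebraMap_mem ⟨e, hE₁ he⟩
      have hle : E₁ ≤ F₁ := fun e he =>
        (IntermediateField.adjoin E₁ {u}).algebraMap_mem ⟨e, he⟩
      have := hmax.le_of_ge hF₁ hle
      exact hu (this (IntermediateField.mem_adjoin_simple_self E₁ u))
    have hle : IntermediateField.adjoin E₁ {w} ≤ IntermediateField.adjoin E₁ {u} := by
      rw [IntermediateField.adjoin_simple_le_iff]
      exact hwu
    have : FiniteDimensional E₁ (IntermediateField.adjoin E₁ {u}) :=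
      IntermediateField.adjoin.finiteDimensional (hint u)
    have heq := IntermediateField.eq_of_le_of_finrank_eq hle (by rw [hfin u hu, hfin w hw₁])
    rw [heq]
    exact IntermediateField.mem_adjoin_simple_self E₁ u
  have htop' : Algebra.adjoin E₁ {w} = ⊤ := by
    rw [← IntermediateField.adjoin_simple_toSubalgebra_of_isAlgebraic (hint w).isAlgebraic, htop]
    rfl
  have hfd : FiniteDimensional E₁ M := by
    have : FiniteDimensional E₁ (IntermediateField.adjoin E₁ {w}) :=
      IntermediateField.adjoin.finiteDimensional (hint w)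
    rw [htop] at this
    exact (IntermediateField.topEquiv (F := E₁) (E := M)).toLinearEquiv.finiteDimensional
  -- not separable
  have hnsep : ¬ Algebra.IsSeparable E₁ M := by
    intro hsep
    have h1 : (minpoly E₁ w).Separable := Algebra.IsSeparable.isSeparable E₁ w
    rw [hmin w hw₁, separable_def] at h1
    have h2 : derivative (X ^ p - C (⟨w ^ p, hpow₁ w⟩ : E₁) : E₁[X]) = 0 := by
      simp [derivative_X_pow]
    rw [h2, isCoprime_zero_right] at h1
    have h3 := natDegree_eq_zero_of_isUnit h1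
    rw [natDegree_X_pow_sub_C] at h3
    exact hp.ne_zero h3
  have hnunr : ¬ Algebra.FormallyUnramified E₁ M := by
    rw [Algebra.FormallyUnramified.iff_isSeparable]
    exact hnsep
  have hnsub : ¬ Subsingleton (Ω[M⁄E₁]) := fun h => hnunr ⟨h⟩
  rw [not_subsingleton_iff_nontrivial] at hnsub
  obtain ⟨x, hx⟩ := exists_ne (0 : Ω[M⁄E₁])
  obtain ⟨φ, hφ⟩ : ∃ φ : Module.Dual M (Ω[M⁄E₁]), φ x ≠ 0 := by
    by_contra hcon
    push Not at hcon
    exact hx ((Module.forall_dual_apply_eq_zero_iff M x).mp hcon)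
  let D₀ : Derivation E₁ M M := φ.compDer (KaehlerDifferential.D E₁ M)
  have hD₀w : D₀ w ≠ 0 := by
    intro h0
    have hD₀ : D₀ = 0 := by
      apply Derivation.ext_of_adjoin_eq_top ({w} : Set M) htop'
      intro a ha
      rw [Set.mem_singleton_iff] at ha
      subst ha
      simpa using h0
    have hφ0 : φ = 0 := by
      apply LinearMap.ext_on (KaehlerDifferential.span_range_derivation E₁ M)
      rintro _ ⟨y, rfl⟩
      have := Derivation.congr_fun hD₀ y
      simpa [D₀] using this
    exact hφ (by simp [hφ0])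
  refine ⟨D₀.restrictScalars ℤ, ?_, ?_⟩
  · intro e he
    exact D₀.map_algebraMap (⟨e, hE₁ he⟩ : E₁)
  · simpa using hD₀w

/-- A wrapper of `KOne M p` whose additive structure is an opaque atom for the elaborator. -/
def V (M : Type*) [Field M] (p : ℕ) : Type _ := KOne M p

noncomputable instance : AddCommGroup (V M p) :=
  (inferInstance : AddCommGroup (KOne M p))

/-- Logarithmic derivative on units. -/
def logDU (D : Der M) : Additive Mˣ →+ M where
  toFun u := D ((Additive.toMul u : Mˣ) : M) / ((Additive.toMul u : Mˣ) : M)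
  map_zero' := by simp
  map_add' u v := by
    have hu := (Additive.toMul u : Mˣ).ne_zero
    have hv := (Additive.toMul v : Mˣ).ne_zero
    simp only [toMul_add, Units.val_mul, Derivation.leibniz, smul_eq_mul]
    field_simp
    ring

omit [Fact p.Prime] in
lemma logDU_mem_zero (D : Der M) (x : Additive Mˣ) (hx : x ∈ pMultiples M p) : logDU D x = 0 := by
  obtain ⟨y, rfl⟩ := hx
  simp [map_nsmul, nsmul_eq_mul]

/-- Logarithmic derivative on `V M p`. -/
def logD (D : Der M) : V M p →+ M where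
  toFun := fun ξ => QuotientAddGroup.lift (pMultiples M p) (logDU D) (logDU_mem_zero D) ξ
  map_zero' := map_zero (QuotientAddGroup.lift (pMultiples M p) (logDU D) (logDU_mem_zero D))
  map_add' := map_add (QuotientAddGroup.lift (pMultiples M p) (logDU D) (logDU_mem_zero D))

/-- The map from units to `V`. -/
def mkV (u : Mˣ) : V M p := cls M p u

omit [Fact p.Prime] [CharP M p] in
lemma mkV_mul (u v : Mˣ) : mkV (p := p) (u * v) = mkV u + mkV v := rfl

omit [Fact p.Prime] in
lemma logD_mkV (D : Der M) (u : Mˣ) : logD (p := p) D (mkV u) = D (u : M) / (u : M) := rfl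

lemma mkV_surj (ξ : V M p) : ∃ u : Mˣ, mkV u = ξ := by
  induction (show KOne M p from ξ) using QuotientAddGroup.induction_on with
  | H z => exact ⟨Additive.toMul z, rfl⟩

lemma mkV_pow_char (u : Mˣ) : mkV (p := p) (u ^ p) = 0 := by
  apply (QuotientAddGroup.eq_zero_iff _).mpr
  exact ⟨Additive.ofMul u, rfl⟩

variable (p) in
open scoped Classical in
/-- The class of a field element in `V` (with junk value `0` at `0`). -/
noncomputable def cl (a : M) : V M p :=
  if h : a = 0 then 0 else mkV (Units.mk0 a h)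

omit [Fact p.Prime] [CharP M p] in
@[simp] lemma cl_zero : cl p (0 : M) = 0 := by simp [cl]

omit [Fact p.Prime] [CharP M p] in
lemma cl_of_ne {a : M} (h : a ≠ 0) : cl p a = mkV (Units.mk0 a h) := by simp [cl, h]

omit [Fact p.Prime] [CharP M p] in
lemma cl_unit (u : Mˣ) : cl p (u : M) = mkV u := by
  rw [cl_of_ne u.ne_zero]
  congr 1
  ext
  simp

omit [Fact p.Prime] in
@[simp] lemma logD_cl (D : Der M) (a : M) : logD (p := p) D (cl p a) = D a / a := by
  by_cases h : a = 0
  · subst h; simp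
  · rw [cl_of_ne h, logD_mkV]
    simp

omit [Fact p.Prime] [CharP M p] in
lemma cl_mul {a b : M} (ha : a ≠ 0) (hb : b ≠ 0) : cl p (a * b) = cl p a + cl p b := by
  rw [cl_of_ne ha, cl_of_ne hb, cl_of_ne (mul_ne_zero ha hb), ← mkV_mul]
  congr 1
  ext
  simp

omit [Fact p.Prime] [CharP M p] in
@[simp] lemma cl_one : cl p (1 : M) = 0 := by
  have h := cl_mul (p := p) (one_ne_zero (α := M)) (one_ne_zero (α := M))
  rw [mul_one] at h
  exact left_eq_add.mp h

omit [Fact p.Prime] [CharP M p] in
lemma cl_inv (a : M) : cl p a⁻¹ = - cl p a := by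
  by_cases ha : a = 0
  · subst ha; simp
  · have := cl_mul (p := p) ha (inv_ne_zero ha)
    rw [mul_inv_cancel₀ ha, cl_one] at this
    exact (eq_neg_of_add_eq_zero_right this.symm)

omit [Fact p.Prime] [CharP M p] in
lemma cl_div {a b : M} (ha : a ≠ 0) (hb : b ≠ 0) : cl p (a / b) = cl p a - cl p b := by
  rw [div_eq_mul_inv, cl_mul ha (inv_ne_zero hb), cl_inv, sub_eq_add_neg]

omit [Fact p.Prime] [CharP M p] in
lemma cl_pow (a : M) (n : ℕ) : cl p (a ^ n) = n • cl p a := by
  by_cases ha : a = 0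
  · subst ha
    cases n with
    | zero => simp
    | succ n => simp
  · induction n with
    | zero => simp
    | succ n ih =>
      rw [pow_succ, cl_mul (pow_ne_zero n ha) ha, ih, succ_nsmul]

lemma cl_surj (ξ : V M p) : ∃ a : M, a ≠ 0 ∧ cl p a = ξ := by
  obtain ⟨u, rfl⟩ := mkV_surj ξ
  exact ⟨u, u.ne_zero, cl_unit u⟩

lemma cl_pow_char (c : M) : cl p (c ^ p) = 0 := by
  by_cases hc : c = 0
  · subst hc
    simp [(Fact.out : p.Prime).ne_zero]
  · have h := mkV_pow_char (p := p) (Units.mk0 c hc)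
    rw [← cl_unit] at h
    simpa using h

lemma cl_neg (a : M) : cl p (-a) = cl p a := by
  by_cases ha : a = 0
  · subst ha; simp
  · have h1 : (-1 : M) = (-1) ^ p := (neg_one_pow_char M p).symm
    have h2 : cl p (-1 : M) = 0 := by rw [h1]; exact cl_pow_char _
    have h3 : -a = (-1) * a := by ring
    rw [h3, cl_mul (by simp) ha, h2, zero_add]

/-- joint injectivity of log-derivatives -/
lemma eq_zero_of_logD (ξ : V M p) (h : ∀ D : Der M, logD D ξ = 0) : ξ = 0 := by
  obtain ⟨a, ha, rfl⟩ := cl_surj ξ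
  by_contra hne
  have hnot : a ∉ (frobenius M p).fieldRange := by
    rintro ⟨c, rfl⟩
    apply hne
    exact cl_pow_char c
  obtain ⟨D, -, hD⟩ := exists_der_of_not_mem (p := p) (frobenius M p).fieldRange
    (fun c => ⟨c, rfl⟩) hnot
  have := h D
  rw [logD_cl] at this
  rcases div_eq_zero_iff.mp this with h1 | h1
  · exact hD h1
  · exact ha h1

lemma logD_injective {ξ η : V M p} (h : ∀ D : Der M, logD D ξ = logD D η) : ξ = η := by
  have := eq_zero_of_logD (ξ - η) (fun D => by rw [map_sub, h D, sub_self])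
  exact sub_eq_zero.mp this

lemma exists_logD_ne {ξ : V M p} (h : ξ ≠ 0) : ∃ D : Der M, logD D ξ ≠ 0 := by
  by_contra hcon
  push Not at hcon
  exact h (eq_zero_of_logD ξ hcon)

omit [Fact p.Prime] in
lemma logD_nsmul (D : Der M) (n : ℕ) (ξ : V M p) : logD D (n • ξ) = (n : M) * logD D ξ := by
  rw [map_nsmul, nsmul_eq_mul]

/-- The relation of `p`-dependence on `V`. -/
def Perp (ξ η : V M p) : Prop :=
  ∀ D D' : Der M, logD D ξ * logD D' η = logD D' ξ * logD D η

namespace Perp

variable {ξ η ζ : V M p}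

omit [Fact p.Prime] in
lemma symm (h : Perp ξ η) : Perp η ξ := fun D D' => by
  have := h D' D
  linear_combination this

omit [Fact p.Prime] in
lemma zero_left (η : V M p) : Perp 0 η := fun D D' => by simp

omit [Fact p.Prime] in
lemma add_right (h₁ : Perp ξ η) (h₂ : Perp ξ ζ) : Perp ξ (η + ζ) := fun D D' => by
  have h1 := h₁ D D'
  have h2 := h₂ D D'
  simp only [map_add]
  linear_combination h1 + h2

omit [Fact p.Prime] in
lemma neg_right (h₁ : Perp ξ η) : Perp ξ (-η) := fun D D' => by
  have h1 := h₁ D D'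
  simp only [map_neg]
  linear_combination -h1

omit [Fact p.Prime] in
lemma sub_right (h₁ : Perp ξ η) (h₂ : Perp ξ ζ) : Perp ξ (η - ζ) := by
  rw [sub_eq_add_neg]; exact h₁.add_right h₂.neg_right

omit [Fact p.Prime] in
lemma self (ξ : V M p) : Perp ξ ξ := fun D D' => by ring

lemma trans (h0 : ξ ≠ 0) (h₁ : Perp ξ η) (h₂ : Perp ξ ζ) : Perp η ζ := fun D D' => by
  obtain ⟨D₀, hD₀⟩ := exists_logD_ne h0
  have a1 := h₁ D D₀
  have a2 := h₂ D D₀
  have a3 := h₁ D' D₀
  have a4 := h₂ D' D₀
  apply mul_left_cancel₀ hD₀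
  apply mul_left_cancel₀ hD₀
  linear_combination (logD D₀ ξ * logD D' ζ) * (- a1) + (logD D₀ η * logD D' ξ) * a2
    + (logD D₀ ξ * logD D ζ) * a3 + (- logD D ξ * logD D₀ η) * a4

end Perp

end Der

end Crest.Agent.S0010Lib
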