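import Crest.Agent.S0010Lib.Global2

/-!
# S0010 library: from the Steinberg span condition to `Compat`.
-/

set_option autoImplicit false

namespace Crest.Agent.S0010Lib

open Crest.NumberTheoryR.MilnorK

section Bridge

variable {M : Type*} [Field M] {p : ℕ} [Fact p.Prime] [CharP M p]

/-- `logD` retyped on `KOne`. -/
noncomputable def logK (D : Der M) : KOne M p →+ M :=
  { toFun := fun ξ => logD (p := p) D ξ
    map_zero' := (logD (p := p) D).map_zero
    map_add' := (logD (p := p) D).map_add }

omit [Fact p.Prime] in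
lemma logK_apply (D : Der M) (ξ : KOne M p) : logK (p := p) D ξ = logD (p := p) D ξ := rfl

lemma logK_smul (D : Der M) (r : ZMod p) (ξ : KOne M p) :
    logK (p := p) D (r • ξ) = (r.val : M) * logK (p := p) D ξ := by
  have h : r • ξ = r.val • ξ := by
    conv_lhs => rw [← ZMod.natCast_zmod_val r]
    exact Nat.cast_smul_eq_nsmul (ZMod p) r.val ξ
  rw [h, map_nsmul, nsmul_eq_mul]

/-- The bilinear wedge. -/
noncomputable def wedgeAux (D D' : Der M) : KOne M p →+ KOne M p →+ M :=
  AddMonoidHom.mk'
    (fun ξ => (AddMonoidHom.mulLeft (logK (p := p) D ξ)).comp (logK (p := p) D')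
      - (AddMonoidHom.mulLeft (logK (p := p) D' ξ)).comp (logK (p := p) D))
    (by
      intro a b
      refine AddMonoidHom.ext fun η => ?_
      show logK (p := p) D (a + b) * logK (p := p) D' η - logK (p := p) D' (a + b) * logK (p := p) D η
        = (logK (p := p) D a * logK (p := p) D' η - logK (p := p) D' a * logK (p := p) D η)
          + (logK (p := p) D b * logK (p := p) D' η - logK (p := p) D' b * logK (p := p) D η)
      rw [map_add, map_add]
      ring)

lemma wedgeAux_apply (D D' : Der M) (ξ η : KOne M p) :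
    wedgeAux (p := p) D D' ξ η
      = logK (p := p) D ξ * logK (p := p) D' η - logK (p := p) D' ξ * logK (p := p) D η := rfl

/-- The wedge on the tensor square. -/
noncomputable def wedge (D D' : Der M) :
    TensorProduct (ZMod p) (KOne M p) (KOne M p) →+ M :=
  TensorProduct.liftAddHom (wedgeAux (p := p) D D') (by
    intro r ξ η
    rw [wedgeAux_apply, wedgeAux_apply, logK_smul, logK_smul, logK_smul, logK_smul]
    ring)

lemma wedge_tmul (D D' : Der M) (ξ η : KOne M p) :
    wedge (p := p) D D' (TensorProduct.tmul (ZMod p) ξ η)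
      = logK (p := p) D ξ * logK (p := p) D' η - logK (p := p) D' ξ * logK (p := p) D η := rfl

lemma wedge_smul (D D' : Der M) (r : ZMod p) (t : TensorProduct (ZMod p) (KOne M p) (KOne M p)) :
    wedge (p := p) D D' (r • t) = (r.val : M) * wedge (p := p) D D' t := by
  have h : r • t = r.val • t := by
    conv_lhs => rw [← ZMod.natCast_zmod_val r]
    exact Nat.cast_smul_eq_nsmul (ZMod p) r.val t
  rw [h, map_nsmul, nsmul_eq_mul]

lemma wedge_eq_zero_of_mem (D D' : Der M) {t : TensorProduct (ZMod p) (KOne M p) (KOne M p)}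
    (ht : t ∈ steinberg M p) : wedge (p := p) D D' t = 0 := by
  unfold steinberg at ht
  induction ht using Submodule.span_induction with
  | mem x hx =>
    obtain ⟨f, hf, hf1, rfl⟩ := hx
    rw [wedge_tmul, logK_apply, logK_apply, logK_apply, logK_apply]
    rw [show ((cls M p (Units.mk0 f hf) : KOne M p)) = cl p f from (cl_of_ne hf).symm]
    rw [show ((cls M p (Units.mk0 (1 - f) hf1) : KOne M p)) = cl p (1 - f) from (cl_of_ne hf1).symm]
    simp only [logD_cl, map_sub, Derivation.map_one_eq_zero, zero_sub]
    ring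
  | zero => exact map_zero _
  | add x y _ _ hx hy => rw [map_add, hx, hy, add_zero]
  | smul r x _ hx => rw [wedge_smul, hx, mul_zero]

lemma perp_of_mem {ξ η : KOne M p}
    (h : TensorProduct.tmul (ZMod p) ξ η ∈ steinberg M p) :
    Perp (p := p) (M := M) ξ η := by
  intro D D'
  have := wedge_eq_zero_of_mem (p := p) D D' h
  rw [wedge_tmul, logK_apply, logK_apply, logK_apply, logK_apply] at this
  exact sub_eq_zero.mp this

lemma tmul_mem_steinberg {f : M} (h0 : f ≠ 0) (h1 : f ≠ 1) :
    TensorProduct.tmul (ZMod p) (show KOne M p from cl p f) (show KOne M p from cl p (1 - f))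
      ∈ steinberg M p := by
  have h1' : 1 - f ≠ 0 := sub_ne_zero.mpr (Ne.symm h1)
  apply Submodule.subset_span
  refine ⟨f, h0, h1', ?_⟩
  rw [cl_of_ne h0, cl_of_ne h1']
  rfl

end Bridge

section Toτ

variable {K L : Type*} [Field K] [Field L] {p : ℕ} [Fact p.Prime] [CharP K p] [CharP L p]

/-- `Θ` as an additive equivalence of the wrappers. -/
noncomputable def toV (Θ : KOne K p ≃ₗ[ZMod p] KOne L p) : V K p ≃+ V L p :=
  { toFun := fun x => Θ x
    invFun := fun y => Θ.symm y
    left_inv := Θ.left_inv
    right_inv := Θ.right_inv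
    map_add' := Θ.map_add }

lemma compat_toV (Θ : KOne K p ≃ₗ[ZMod p] KOne L p) (hΘ : IsCompatible Θ) : Compat (toV Θ) := by
  intro f h0 h1
  have hmem := tmul_mem_steinberg (p := p) h0 h1
  have hmem2 := Submodule.mem_map_of_mem
    (f := (TensorProduct.map Θ.toLinearMap Θ.toLinearMap)) hmem
  rw [hΘ, TensorProduct.map_tmul] at hmem2
  exact perp_of_mem hmem2

lemma compat_toV_symm (Θ : KOne K p ≃ₗ[ZMod p] KOne L p) (hΘ : IsCompatible Θ) :
    Compat (toV Θ).symm := by
  intro f h0 h1
  have hmem := tmul_mem_steinberg (p := p) h0 h1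
  rw [← hΘ] at hmem
  obtain ⟨s, hs, hseq⟩ := hmem
  have key : TensorProduct.map Θ.symm.toLinearMap Θ.symm.toLinearMap
      (TensorProduct.map Θ.toLinearMap Θ.toLinearMap s) = s := by
    rw [← LinearMap.comp_apply, ← TensorProduct.map_comp]
    have h1 : Θ.symm.toLinearMap ∘ₗ Θ.toLinearMap = LinearMap.id := by
      ext x
      simp
    rw [h1, TensorProduct.map_id]
    rfl
  have : s = TensorProduct.tmul (ZMod p) (Θ.symm (show KOne L p from cl p f))
      (Θ.symm (show KOne L p from cl p (1 - f))) := by
    rw [← key]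
    have hseq' := hseq
    simp only [SetLike.mem_coe] at hseq'
    erw [hseq']
    rw [TensorProduct.map_tmul]
    rfl
  rw [this] at hs
  exact perp_of_mem hs

end Toτ

end Crest.Agent.S0010Lib
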