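import Crest.Agent.S0010Lib.Basic

/-!
# S0010 library, part 2: the differential core computation (Riccati equation).
-/

set_option autoImplicit false

namespace Crest.Agent.S0010Lib

open Crest.NumberTheoryR.MilnorK

section Core

variable {L : Type*} [Field L] {p : ℕ} [Fact p.Prime] [CharP L p]

omit [Fact p.Prime] [CharP L p] in
/-- If `D f = g * D y` for every derivation `D`, then every derivation killing `y` kills `g`. -/
lemma closed_aux {f g y : L} (D₀ : Der L) (h0 : D₀ y ≠ 0)
    (h : ∀ D : Der L, D f = g * D y) {D : Der L} (hD : D y = 0) : D g = 0 := by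
  have h1 := h ⁅D, D₀⁆
  rw [Derivation.commutator_apply, Derivation.commutator_apply, h D₀, h D, hD] at h1
  simp only [mul_zero, map_zero, sub_zero, Derivation.leibniz, smul_eq_mul] at h1
  have h2 : D₀ y * D g = 0 := by linear_combination h1
  exact (mul_eq_zero.mp h2).resolve_left h0

omit [Fact p.Prime] [CharP L p] in
/-- Iterated Leibniz rule. -/
lemma iterate_leibniz (D : Der L) (n : ℕ) (a b : L) :
    D^[n] (a * b) =
      ∑ ij ∈ Finset.HasAntidiagonal.antidiagonal n, (n.choose ij.1 : L) * (D^[ij.1] a * D^[ij.2] b) := by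
  induction n with
  | zero => simp
  | succ n ih =>
    rw [Function.iterate_succ_apply', ih,
      Finset.sum_antidiagonal_choose_succ_mul (fun i j => D^[i] a * D^[j] b) n, map_sum,
      ← Finset.sum_add_distrib]
    refine Finset.sum_congr rfl ?_
    rintro ⟨i, j⟩ hij
    rw [Finset.HasAntidiagonal.mem_antidiagonal] at hij
    simp only at hij ⊢
    have h1 : n.choose j = n.choose i := by
      rw [← hij]
      exact (Nat.choose_symm_add).symm
    have h2 : ∀ c : L, D ((n.choose i : L) * c) = (n.choose i : L) * D c := by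
      intro c
      rw [Derivation.leibniz, Derivation.map_natCast]
      simp
    rw [h1, h2, Derivation.leibniz]
    simp only [Function.iterate_succ_apply', smul_eq_mul]
    ring

/-- The `p`-th iterate of a derivation in characteristic `p` is a derivation. -/
lemma exists_der_iterate (D : Der L) : ∃ E : Der L, ∀ a, E a = D^[p] a := by
  have hp : p.Prime := Fact.out
  let f : L →ₗ[ℤ] L := (D : L →ₗ[ℤ] L) ^ p
  have hf : ∀ a, f a = D^[p] a := by
    intro a
    simp only [f, Module.End.pow_apply]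
    rfl
  refine ⟨Derivation.mk' f ?_, fun a => ?_⟩
  · intro a b
    rw [hf, hf, hf, iterate_leibniz, Finset.Nat.sum_antidiagonal_eq_sum_range_succ_mk]
    obtain ⟨m, hm⟩ : ∃ m, p = m + 1 := ⟨p - 1, by have := hp.pos; omega⟩
    have hsum : ∀ F : ℕ → L, ∑ k ∈ Finset.range p.succ, F k =
        ∑ k ∈ Finset.range m, F (k + 1) + F 0 + F p := by
      intro F
      rw [Finset.sum_range_succ, hm, Finset.sum_range_succ']
    rw [hsum]
    have hmid : ∑ k ∈ Finset.range m, ((p.choose (k + 1) : ℕ) : L) *
        (D^[k + 1] a * D^[p - (k + 1)] b) = 0 := by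
      apply Finset.sum_eq_zero
      intro k hk
      have hk' : k + 1 < p := by
        rw [Finset.mem_range] at hk; omega
      have : ((p.choose (k + 1) : ℕ) : L) = 0 :=
        (CharP.cast_eq_zero_iff L p _).mpr (hp.dvd_choose_self (by omega) hk')
      rw [this, zero_mul]
    simp only at hmid ⊢
    rw [hmid]
    simp [smul_eq_mul]
    ring
  · simp [Derivation.coe_mk', hf]

omit [Fact p.Prime] [CharP L p] in
/-- Killing a generator kills the log-multiplier. -/
lemma alpha_kill {x v α : L} (hx : x ≠ 0) (hv : v ≠ 0) (D₁ : Der L) (hD₁ : D₁ x = x)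
    (R : ∀ D : Der L, D v / v = α * (D x / x)) {D : Der L} (hD : D x = 0) : D α = 0 := by
  have hR : ∀ D : Der L, D v = (α * v / x) * D x := by
    intro D
    have := R D
    field_simp at this ⊢
    linear_combination this
  have h1 : D (α * v / x) = 0 := closed_aux D₁ (by rw [hD₁]; exact hx) hR hD
  have hDv : D v = 0 := by rw [hR D, hD, mul_zero]
  have h2 : α * v = (α * v / x) * x := by field_simp
  have h3 := congrArg D h2
  simp only [Derivation.leibniz, smul_eq_mul, hDv, hD, h1, mul_zero, add_zero, zero_add] at h3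
  exact (mul_eq_zero.mp h3).resolve_left hv

omit [Fact p.Prime] [CharP L p] in
lemma alpha_all {x α : L} (hx : x ≠ 0) (D₁ : Der L) (hD₁ : D₁ x = x)
    (K : ∀ {D : Der L}, D x = 0 → D α = 0) (D : Der L) : D α = (D₁ α / x) * D x := by
  let D' : Der L := D - (D x / x) • D₁
  have h1 : D' x = 0 := by
    simp only [D', Derivation.sub_apply, Derivation.smul_apply, hD₁, smul_eq_mul]
    field_simp
    ring
  have h2 : D' α = 0 := K h1
  simp only [D', Derivation.sub_apply, Derivation.smul_apply, smul_eq_mul] at h2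
  field_simp
  field_simp at h2
  linear_combination h2

omit [Fact p.Prime] [CharP L p] in
lemma alpha'_kill {x α : L} (hx : x ≠ 0) (D₁ : Der L) (hD₁ : D₁ x = x)
    (K : ∀ {D : Der L}, D x = 0 → D α = 0) {D : Der L} (hD : D x = 0) : D (D₁ α) = 0 := by
  have h1 : D (D₁ α / x) = 0 :=
    closed_aux D₁ (by rw [hD₁]; exact hx) (alpha_all hx D₁ hD₁ K) hD
  have h2 : D₁ α = (D₁ α / x) * x := by field_simp
  rw [h2, Derivation.leibniz, h1, hD]
  simp

omit [Fact p.Prime] [CharP L p] in
lemma iterate_eigen (D : Der L) {g c : L} (hc : D c = 0) (hg : D g = c * g) (n : ℕ) :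
    D^[n] g = c ^ n * g := by
  induction n with
  | zero => simp
  | succ n ih =>
    rw [Function.iterate_succ_apply', ih, Derivation.leibniz, Derivation.leibniz_pow, hc, hg]
    simp only [smul_eq_mul, smul_zero, mul_zero, add_zero, pow_succ]
    ring

lemma exists_nat_of_pow_eq {c : L} (hc : c ^ p = c) : ∃ i : ℕ, i < p ∧ c = (i : L) := by
  have hmem : c ∈ (⊥ : Subfield L) := (Subfield.mem_bot_iff_pow_eq_self L p).mpr hc
  rw [← ZMod.fieldRange_castHom_eq_bot p] at hmem
  obtain ⟨a, rfl⟩ := hmem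
  refine ⟨a.val, ZMod.val_lt a, ?_⟩
  simp

/-- If `D g = c g` and `D` has `D x = x` and `g` depends only on `x`, then `c^p = c`. -/
lemma pow_eq_of_eigen {x g c : L} (hx : x ≠ 0) (hg0 : g ≠ 0) (D₁ : Der L) (hD₁ : D₁ x = x)
    (hc : D₁ c = 0) (hg : D₁ g = c * g)
    (hdep : ∀ D : Der L, D x = 0 → D g = 0) : c ^ p = c := by
  obtain ⟨E, hE⟩ := exists_der_iterate (p := p) D₁
  have hitx : ∀ n : ℕ, D₁^[n] x = x := by
    intro n
    induction n with
    | zero => rfl
    | succ n ih => rw [Function.iterate_succ_apply', ih, hD₁]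
  have h1 : (E - D₁) x = 0 := by
    rw [Derivation.sub_apply, hE, hitx, hD₁, sub_self]
  have h2 := hdep _ h1
  rw [Derivation.sub_apply, hE, iterate_eigen D₁ hc hg, hg] at h2
  have h3 : (c ^ p - c) * g = 0 := by linear_combination h2
  have h4 := (mul_eq_zero.mp h3).resolve_right hg0
  exact sub_eq_zero.mp h4

omit [Fact p.Prime] [CharP L p] in
lemma der_t {α : L} (hα1 : 1 - α ≠ 0) (D : Der L) :
    D (α / (1 - α)) = D α / (1 - α) ^ 2 := by
  rw [Derivation.leibniz_div]
  simp only [Derivation.map_sub, Derivation.map_one_eq_zero, smul_eq_mul]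
  field_simp
  ring

omit [Fact p.Prime] [CharP L p] in
lemma der_one_add (a : L) (D : Der L) : D (1 + a) = D a := by
  simp [Derivation.map_one_eq_zero]

/-- The differential core of the reconstruction. -/
theorem core {x y v w z : L} (hx : x ≠ 0) (hy : y ≠ 0) (hv : v ≠ 0) (hw : w ≠ 0) (hz : z ≠ 0)
    (D₁ D₂ : Der L) (h11 : D₁ x = x) (h12 : D₁ y = 0) (h21 : D₂ x = 0) (h22 : D₂ y = y)
    (hxv : Perp (cl p x) (cl p v)) (hyw : Perp (cl p y) (cl p w))
    (hz1 : Perp (cl p y - cl p v) (cl p z - cl p v))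
    (hz2 : Perp (cl p x - cl p w) (cl p z - cl p w))
    (hno : ∀ j : ℕ, cl p v ≠ j • cl p x) (hw0 : cl p w ≠ 0) (hw1 : cl p w ≠ cl p y) :
    ∃ n : ℕ, (n : L) ≠ 0 ∧ ∃ t t₂ : L, t ≠ 0 ∧ 1 + t ≠ 0 ∧ t₂ ≠ 0 ∧ 1 + t₂ ≠ 0 ∧ 1 + t + t₂ ≠ 0 ∧
      cl p t = n • cl p x ∧ cl p (1 + t) = n • cl p v ∧
      cl p t₂ = n • cl p y ∧ cl p (1 + t₂) = n • cl p w ∧ cl p (1 + t + t₂) = n • cl p z := by
  have hp : p.Prime := Fact.out
  -- the multipliers
  obtain ⟨α, hα⟩ : ∃ α : L, α = D₁ v / v := ⟨_, rfl⟩
  obtain ⟨β, hβ⟩ : ∃ β : L, β = D₂ w / w := ⟨_, rfl⟩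
  obtain ⟨P, hP⟩ : ∃ P : L, P = D₁ z / z := ⟨_, rfl⟩
  obtain ⟨Q, hQ⟩ : ∃ Q : L, Q = D₂ z / z := ⟨_, rfl⟩
  have h1x : D₁ x / x = 1 := by rw [h11]; exact div_self hx
  have h2y : D₂ y / y = 1 := by rw [h22]; exact div_self hy
  have hvα : ∀ D : Der L, D v / v = α * (D x / x) := by
    intro D
    have := hxv D D₁
    simp only [logD_cl, h1x, one_mul] at this
    rw [← this, hα]
    ring
  have hwβ : ∀ D : Der L, D w / w = β * (D y / y) := by
    intro D
    have := hyw D D₂
    simp only [logD_cl, h2y, one_mul] at this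
    rw [← this, hβ]
    ring
  have h2v : D₂ v / v = 0 := by rw [hvα, h21]; simp
  have h1w : D₁ w / w = 0 := by rw [hwβ, h12]; simp
  have hZ1 : ∀ D : Der L, D z / z = α * (D x / x) + Q * (D y / y - α * (D x / x)) := by
    intro D
    have := hz1 D D₂
    simp only [map_sub, logD_cl, h2y, h2v, sub_zero, one_mul] at this
    rw [hvα D, ← hQ] at this
    linear_combination -this
  have hZ2 : ∀ D : Der L, D z / z = β * (D y / y) + P * (D x / x - β * (D y / y)) := by
    intro D
    have := hz2 D D₁
    simp only [map_sub, logD_cl, h1x, h1w, sub_zero, one_mul] at this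
    rw [hwβ D, ← hP] at this
    linear_combination -this
  have hPeq : P = α * (1 - Q) := by
    have := hZ1 D₁
    rw [h1x, h12] at this
    simp only [zero_div] at this
    rw [← hP] at this
    linear_combination this
  have hQeq : Q = β * (1 - P) := by
    have := hZ2 D₂
    rw [h2y, h21] at this
    simp only [zero_div] at this
    rw [← hQ] at this
    linear_combination this
  -- killing
  have Kα : ∀ {D : Der L}, D x = 0 → D α = 0 := fun hD => alpha_kill hx hv D₁ h11 hvα hD
  have Kβ : ∀ {D : Der L}, D y = 0 → D β = 0 := fun hD => alpha_kill hy hw D₂ h22 hwβ hD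
  have Kα' : ∀ {D : Der L}, D x = 0 → D (D₁ α) = 0 := fun hD => alpha'_kill hx D₁ h11 Kα hD
  have Kβ' : ∀ {D : Der L}, D y = 0 → D (D₂ β) = 0 := fun hD => alpha'_kill hy D₂ h22 Kβ hD
  have hαall := alpha_all hx D₁ h11 Kα
  have hβall := alpha_all hy D₂ h22 Kβ
  -- nondegeneracy
  have hα0 : α ≠ 0 := by
    intro h0
    apply hno 0
    apply logD_injective
    intro D
    rw [logD_nsmul, logD_cl, hvα, h0]
    simp
  have hα1 : α ≠ 1 := by
    intro h0
    apply hno 1
    apply logD_injective
    intro D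
    rw [logD_nsmul, logD_cl, logD_cl, hvα, h0]
    simp
  have hβ0 : β ≠ 0 := by
    intro h0
    apply hw0
    apply eq_zero_of_logD
    intro D
    rw [logD_cl, hwβ, h0]
    simp
  have hβ1 : β ≠ 1 := by
    intro h0
    apply hw1
    apply logD_injective
    intro D
    rw [logD_cl, logD_cl, hwβ, h0]
    simp
  have h1α : 1 - α ≠ 0 := sub_ne_zero.mpr (Ne.symm hα1)
  have h1β : 1 - β ≠ 0 := sub_ne_zero.mpr (Ne.symm hβ1)
  have hαβ : 1 - α * β ≠ 0 := by
    intro h
    apply hα1
    have h' : α * β = 1 := by linear_combination -h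
    linear_combination -hPeq + α * hQeq + (1 - P) * h'
  have hQform : Q = β * (1 - α) / (1 - α * β) := by
    rw [eq_div_iff hαβ]
    linear_combination hQeq - β * hPeq
  have hPform : P = α * (1 - β) / (1 - α * β) := by
    rw [eq_div_iff hαβ]
    linear_combination hPeq - α * hQeq
  -- commutator
  have hD1z : D₁ z = P * z := by rw [hP]; field_simp
  have hD2z : D₂ z = Q * z := by rw [hQ]; field_simp
  have hcomm : D₁ Q = D₂ P := by
    have hCx : (⁅D₁, D₂⁆ : Der L) x = 0 := by
      rw [Derivation.commutator_apply, h21, h11, h21]; simp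
    have hCy : (⁅D₁, D₂⁆ : Der L) y = 0 := by
      rw [Derivation.commutator_apply, h22, h12]; simp
    have hCz := hZ1 (⁅D₁, D₂⁆ : Der L)
    rw [hCx, hCy] at hCz
    simp only [zero_div, mul_zero, sub_zero, add_zero] at hCz
    have hCz' : (⁅D₁, D₂⁆ : Der L) z = 0 := by
      rcases div_eq_zero_iff.mp hCz with h | h
      · exact h
      · exact absurd h hz
    rw [Derivation.commutator_apply, hD1z, hD2z, Derivation.leibniz, Derivation.leibniz, hD1z,
      hD2z] at hCz'
    simp only [smul_eq_mul] at hCz'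
    have : z * (D₁ Q - D₂ P) = 0 := by linear_combination hCz'
    have := (mul_eq_zero.mp this).resolve_left hz
    exact sub_eq_zero.mp this
  -- differentiate the two relations
  have h2α : D₂ α = 0 := Kα h21
  have hD1β : D₁ β = 0 := Kβ h12
  have e1 : D₂ P = - α * D₂ Q := by
    have := congrArg D₂ hPeq
    rw [Derivation.leibniz, h2α] at this
    simp only [Derivation.map_sub, Derivation.map_one_eq_zero, smul_eq_mul] at this
    linear_combination this
  have e2 : D₂ Q = D₂ β * (1 - P) - β * D₂ P := by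
    have := congrArg D₂ hQeq
    rw [Derivation.leibniz] at this
    simp only [Derivation.map_sub, Derivation.map_one_eq_zero, smul_eq_mul] at this
    linear_combination this
  have e3 : D₁ Q = - β * D₁ P := by
    have := congrArg D₁ hQeq
    rw [Derivation.leibniz, hD1β] at this
    simp only [Derivation.map_sub, Derivation.map_one_eq_zero, smul_eq_mul] at this
    linear_combination this
  have e4 : D₁ P = D₁ α * (1 - Q) - α * D₁ Q := by
    have := congrArg D₁ hPeq
    rw [Derivation.leibniz] at this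
    simp only [Derivation.map_sub, Derivation.map_one_eq_zero, smul_eq_mul] at this
    linear_combination this
  have hPP : (1 - α * β) * (1 - P) = 1 - α := by
    linear_combination (-1 : L) * hPeq + α * hQeq
  have hQQ : (1 - α * β) * (1 - Q) = 1 - β := by
    linear_combination (-1 : L) * hQeq + β * hPeq
  have hu1 : D₂ P * (1 - α * β) = - α * D₂ β * (1 - P) := by
    linear_combination e1 - α * e2
  have hu2 : D₁ Q * (1 - α * β) = - β * D₁ α * (1 - Q) := by
    linear_combination e3 - β * e4
  have key0 : α * D₂ β * (1 - P) = β * D₁ α * (1 - Q) := by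
    rw [hcomm] at hu2
    linear_combination hu1 - hu2
  have key : α * D₂ β * (1 - α) = β * D₁ α * (1 - β) := by
    linear_combination (1 - α * β) * key0 - α * D₂ β * hPP + β * D₁ α * hQQ
  -- the Riccati constant
  obtain ⟨κ, hκ⟩ : ∃ κ : L, κ = D₁ α / (α * (1 - α)) := ⟨_, rfl⟩
  have hκ1 : D₁ α = κ * (α * (1 - α)) := by
    rw [hκ]; field_simp
  have hκ2 : D₂ β = κ * (β * (1 - β)) := by
    have h1 : α * (1 - α) * (D₂ β - κ * (β * (1 - β))) = 0 := by
      rw [hκ1] at key
      linear_combination key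
    have h2 := (mul_eq_zero.mp h1).resolve_left (mul_ne_zero hα0 h1α)
    exact sub_eq_zero.mp h2
  have hD1κ : D₁ κ = 0 := by
    have h1 := congrArg D₁ hκ2
    rw [Kβ' h12, Derivation.leibniz, Derivation.leibniz, hD1β] at h1
    simp only [Derivation.map_sub, Derivation.map_one_eq_zero, hD1β, smul_eq_mul, mul_zero,
      sub_zero, add_zero] at h1
    have h2 : (β * (1 - β)) * D₁ κ = 0 := by linear_combination -h1
    exact (mul_eq_zero.mp h2).resolve_left (mul_ne_zero hβ0 h1β)
  -- the function g
  obtain ⟨g, hg⟩ : ∃ g : L, g = (1 - α) / α := ⟨_, rfl⟩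
  have hg0 : g ≠ 0 := by rw [hg]; exact div_ne_zero h1α hα0
  have hDg : ∀ D : Der L, D g = (-κ) * g * (D x / x) := by
    intro D
    rw [hg, Derivation.leibniz_div]
    simp only [Derivation.map_sub, Derivation.map_one_eq_zero, smul_eq_mul]
    rw [hαall D, hκ1]
    field_simp
    ring
  have hD₁g : D₁ g = (-κ) * g := by
    rw [hDg, h1x, mul_one]
  have hpow : (-κ) ^ p = -κ := by
    refine pow_eq_of_eigen hx hg0 D₁ h11 (by rw [map_neg, hD1κ, neg_zero]) hD₁g ?_
    intro D hD
    rw [hDg, hD]
    simp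
  obtain ⟨i, hip, hi⟩ := exists_nat_of_pow_eq hpow
  rcases Nat.eq_zero_or_pos i with hi0 | hi0
  · -- the degenerate case: `α` is a constant in `𝔽ₚ`
    exfalso
    subst hi0
    have hκ0 : κ = 0 := by simpa using hi
    have hD1α : D₁ α = 0 := by rw [hκ1, hκ0, zero_mul]
    have hD1v : D₁ v = α * v := by rw [hα]; field_simp
    have hpowα : α ^ p = α := by
      refine pow_eq_of_eigen hx hv D₁ h11 hD1α hD1v ?_
      intro D hD
      have := hvα D
      rw [hD] at this
      simpa [hv] using this
    obtain ⟨j, -, hj⟩ := exists_nat_of_pow_eq hpowα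
    apply hno j
    apply logD_injective
    intro D
    rw [logD_nsmul, logD_cl, logD_cl, hvα, hj]
  -- the main case
  have hκn : (((p - i : ℕ)) : L) = κ := by
    rw [Nat.cast_sub hip.le, CharP.cast_eq_zero L p, zero_sub, ← hi, neg_neg]
  have hκ0 : κ ≠ 0 := by
    intro h0
    rw [h0, neg_zero] at hi
    have hi' : ((i : ℕ) : L) = 0 := hi.symm
    rw [CharP.cast_eq_zero_iff L p] at hi'
    exact absurd (Nat.le_of_dvd hi0 hi') (by omega)
  refine ⟨p - i, by rw [hκn]; exact hκ0, α / (1 - α), β / (1 - β), div_ne_zero hα0 h1α, ?_,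
    div_ne_zero hβ0 h1β, ?_, ?_, ?_, ?_, ?_, ?_, ?_⟩
  · have : 1 + α / (1 - α) = 1 / (1 - α) := by field_simp; ring
    rw [this]; exact one_div_ne_zero h1α
  · have : 1 + β / (1 - β) = 1 / (1 - β) := by field_simp; ring
    rw [this]; exact one_div_ne_zero h1β
  · have : 1 + α / (1 - α) + β / (1 - β) = (1 - α * β) / ((1 - α) * (1 - β)) := by
      field_simp; ring
    rw [this]; exact div_ne_zero hαβ (mul_ne_zero h1α h1β)
  · apply logD_injective
    intro D
    rw [logD_nsmul, logD_cl, logD_cl, hκn, der_t h1α, hαall, hκ1]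
    field_simp
  · apply logD_injective
    intro D
    have : 1 + α / (1 - α) = 1 / (1 - α) := by field_simp; ring
    rw [logD_nsmul, logD_cl, logD_cl, hκn, der_one_add, der_t h1α, hvα, hαall, hκ1, this]
    field_simp
  · apply logD_injective
    intro D
    rw [logD_nsmul, logD_cl, logD_cl, hκn, der_t h1β, hβall, hκ2]
    field_simp
  · apply logD_injective
    intro D
    have : 1 + β / (1 - β) = 1 / (1 - β) := by field_simp; ring
    rw [logD_nsmul, logD_cl, logD_cl, hκn, der_one_add, der_t h1β, hwβ, hβall, hκ2, this]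
    field_simp
  · apply logD_injective
    intro D
    have hT : 1 + α / (1 - α) + β / (1 - β) = (1 - α * β) / ((1 - α) * (1 - β)) := by
      field_simp; ring
    have hDT : D (1 + α / (1 - α) + β / (1 - β)) = κ * (α / (1 - α) * (D x / x) + β / (1 - β) * (D y / y)) := by
      rw [Derivation.map_add, der_one_add, der_t h1α, der_t h1β, hαall, hβall, hκ1, hκ2]
      field_simp
    rw [logD_nsmul, logD_cl, logD_cl, hκn, hDT, hZ1, hQform, hT]
    field_simp
    ring

end Core

end Crest.Agent.S0010Lib
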