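import Crest.Agent.S0010Lib.Bridge

/-!
# S0010 library: geometry of finitely generated fields over algebraically closed fields.
-/

set_option autoImplicit false

namespace Crest.Agent.S0010Lib

open scoped IntermediateField.algebraAdjoinAdjoin
open Polynomial

section DerExt

/-- Coordinate derivations for a separating algebraically independent family. -/
theorem exists_derivation_of_algebraicIndependent {k F ι : Type*} [Field k] [Field F] [Algebra k F]
    {v : ι → F} (hv : AlgebraicIndependent k v)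
    [Algebra.IsSeparable (IntermediateField.adjoin k (Set.range v)) F] (i : ι) :
    ∃ D : Derivation k F F, D (v i) = 1 ∧ ∀ j, j ≠ i → D (v j) = 0 := by
  classical
  let S := Algebra.adjoin k (Set.range v)
  let E := IntermediateField.adjoin k (Set.range v)
  let e : MvPolynomial ι k ≃ₐ[k] S := hv.aevalEquiv
  have hev : ∀ a : S, MvPolynomial.aeval v (e.symm a) = (a : F) := by
    intro a
    have := hv.algebraMap_aevalEquiv (e.symm a)
    rw [← this]
    have h2 : hv.aevalEquiv (e.symm a) = a := e.apply_symm_apply a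
    rw [h2]
    rfl
  have hX : ∀ j, ∃ h : v j ∈ S, e.symm ⟨v j, h⟩ = MvPolynomial.X j := by
    intro j
    refine ⟨Algebra.subset_adjoin ⟨j, rfl⟩, ?_⟩
    rw [AlgEquiv.symm_apply_eq]
    apply Subtype.ext
    have := hv.algebraMap_aevalEquiv (MvPolynomial.X j)
    rw [MvPolynomial.aeval_X] at this
    exact this.symm
  let δ₀ : S →ₗ[k] F := (MvPolynomial.aeval v).toLinearMap ∘ₗ
    ((MvPolynomial.pderiv i).toLinearMap ∘ₗ e.symm.toLinearMap)
  have hδ₀ : ∀ a : S, δ₀ a = MvPolynomial.aeval v (MvPolynomial.pderiv i (e.symm a)) := fun a => rfl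
  let δ : Derivation k S F := Derivation.mk' δ₀ (by
    intro a b
    rw [hδ₀, hδ₀, hδ₀, map_mul, Derivation.leibniz, map_add, smul_eq_mul, smul_eq_mul, map_mul,
      map_mul, hev, hev]
    rfl)
  have hδ : ∀ a : S, δ a = δ₀ a := fun a => rfl
  have e1 : Algebra.FormallyEtale S E :=
    Algebra.FormallyEtale.of_isLocalization (nonZeroDivisors S)
  have e2 : Algebra.FormallyEtale E F := Algebra.FormallyEtale.of_isSeparable E F
  have e3 : Algebra.FormallyEtale S F := Algebra.FormallyEtale.comp S E F
  let Φ := KaehlerDifferential.tensorKaehlerEquivOfFormallyEtale k S F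
  let l : Ω[F⁄k] →ₗ[F] F :=
    (LinearMap.liftBaseChange F δ.liftKaehlerDifferential) ∘ₗ Φ.symm.toLinearMap
  let D : Derivation k F F := l.compDer (KaehlerDifferential.D k F)
  have hD : ∀ a : S, D (a : F) = δ a := by
    intro a
    show l (KaehlerDifferential.D k F (algebraMap S F a)) = δ a
    show LinearMap.liftBaseChange F δ.liftKaehlerDifferential
      (Φ.symm (KaehlerDifferential.D k F (algebraMap S F a))) = δ a
    rw [KaehlerDifferential.tensorKaehlerEquivOfFormallyEtale_symm_D_algebraMap]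
    rw [LinearMap.liftBaseChange_tmul, one_smul, Derivation.liftKaehlerDifferential_comp_D]
  refine ⟨D, ?_, ?_⟩
  · obtain ⟨h, hh⟩ := hX i
    have := hD ⟨v i, h⟩
    simp only [] at this
    rw [this, hδ, hδ₀, hh]
    simp
  · intro j hj
    obtain ⟨h, hh⟩ := hX j
    have := hD ⟨v j, h⟩
    simp only [] at this
    rw [this, hδ, hδ₀, hh]
    rw [MvPolynomial.pderiv_X_of_ne hj]
    simp

end DerExt

section Fg

lemma essFiniteType_of_closure {K : Type*} [Field K] (k : Subfield K)
    (hK : ∃ s : Finset K, Subfield.closure ((k : Set K) ∪ (s : Set K)) = ⊤) :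
    Algebra.EssFiniteType k K := by
  obtain ⟨s, hs⟩ := hK
  rw [← IntermediateField.fg_top_iff]
  refine ⟨s, ?_⟩
  rw [eq_top_iff]
  intro x _
  have hx : x ∈ Subfield.closure ((k : Set K) ∪ (s : Set K)) := by rw [hs]; trivial
  have hle : Subfield.closure ((k : Set K) ∪ (s : Set K))
      ≤ (IntermediateField.adjoin k (s : Set K)).toSubfield := by
    rw [Subfield.closure_le]
    rintro y (hy | hy)
    · exact (IntermediateField.adjoin k (s : Set K)).algebraMap_mem ⟨y, hy⟩
    · exact IntermediateField.subset_adjoin _ _ hy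
  exact hle hx

theorem exists_not_dep {K : Type*} [Field K] (k : Subfield K) [IsAlgClosed k]
    (hK : ∃ s : Finset K, Subfield.closure ((k : Set K) ∪ (s : Set K)) = ⊤)
    (hK2 : 2 ≤ Algebra.trdeg k K) : ∃ a b : K, ¬ Dep a b := by
  classical
  have hess := essFiniteType_of_closure k hK
  obtain ⟨s, hs, hsep⟩ := exists_isTranscendenceBasis_and_isSeparable_of_perfectField k K
  have hcard : 1 < s.card := by
    have h1 := hs.cardinalMk_eq_trdeg
    rw [← h1] at hK2
    simp only [Cardinal.mk_coe_finset] at hK2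
    have h3 : 2 ≤ s.card := by exact_mod_cast hK2
    omega
  obtain ⟨a, ha, b, hb, hab⟩ := Finset.one_lt_card.mp hcard
  have hsep' : Algebra.IsSeparable (IntermediateField.adjoin k (Set.range ((↑) : s → K))) K := by
    have h : Set.range ((↑) : s → K) = (s : Set K) := by simp
    rw [h]
    exact hsep
  obtain ⟨Da, hDa1, hDa0⟩ := exists_derivation_of_algebraicIndependent hs.1 (⟨a, ha⟩ : s)
  obtain ⟨Db, hDb1, hDb0⟩ := exists_derivation_of_algebraicIndependent hs.1 (⟨b, hb⟩ : s)
  have hDa0' : Da b = 0 := hDa0 (⟨b, hb⟩ : s) (fun h => hab (congrArg Subtype.val h).symm)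
  have hDb0' : Db a = 0 := hDb0 (⟨a, ha⟩ : s) (fun h => hab (congrArg Subtype.val h))
  refine ⟨a, b, fun h => ?_⟩
  have h0 := h (Da.restrictScalars ℤ) (Db.restrictScalars ℤ)
  have hDa1' : Da a = 1 := hDa1
  have hDb1' : Db b = 1 := hDb1
  simp only [Derivation.restrictScalars_apply, hDa1', hDb1', hDa0', hDb0'] at h0
  simp at h0

lemma no_pth_root_adjoin {l L ι : Type*} [Field l] [Field L] [Algebra l L] {p : ℕ} [Fact p.Prime]
    [CharP L p] {v : ι → L} (hv : AlgebraicIndependent l v) (i : ι) {e : L}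
    (he : e ∈ IntermediateField.adjoin l (Set.range v)) : e ^ p ≠ v i := by
  intro h
  have hp : p.Prime := Fact.out
  have hcharl : CharP l p := (algebraMap l L).charP (algebraMap l L).injective p
  rw [IntermediateField.mem_adjoin_iff_div] at he
  obtain ⟨x, hx, y, hy, rfl⟩ := he
  rw [Algebra.adjoin_range_eq_range_aeval] at hx hy
  obtain ⟨P, rfl⟩ := hx
  obtain ⟨Q, rfl⟩ := hy
  have hinj : Function.Injective (MvPolynomial.aeval v : MvPolynomial ι l →ₐ[l] L) := hv
  have hQ : MvPolynomial.aeval v Q ≠ 0 := by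
    intro h0
    change (MvPolynomial.aeval v P / MvPolynomial.aeval v Q) ^ p = v i at h
    rw [h0, div_zero, zero_pow hp.ne_zero] at h
    have h2 : MvPolynomial.aeval v (MvPolynomial.X i : MvPolynomial ι l) = MvPolynomial.aeval v (0 : MvPolynomial ι l) := by
      rw [MvPolynomial.aeval_X, map_zero, ← h]
    exact MvPolynomial.X_ne_zero i (hinj h2)
  change (MvPolynomial.aeval v P / MvPolynomial.aeval v Q) ^ p = v i at h
  rw [div_pow, div_eq_iff (pow_ne_zero _ hQ)] at h
  have hpoly : P ^ p = MvPolynomial.X i * Q ^ p := by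
    apply hinj
    rw [map_pow, map_mul, map_pow, MvPolynomial.aeval_X]
    exact h
  have hpzero : (p : MvPolynomial ι l) = 0 := by
    have h3 : (p : MvPolynomial ι l) = MvPolynomial.C (p : l) := (map_natCast _ p).symm
    rw [h3, CharP.cast_eq_zero l p, map_zero]
  have hd : ∀ R : MvPolynomial ι l, MvPolynomial.pderiv i (R ^ p) = 0 := by
    intro R
    rw [Derivation.leibniz_pow, nsmul_eq_mul, hpzero, zero_mul]
  have h4 := congrArg (MvPolynomial.pderiv i) hpoly
  rw [hd, Derivation.leibniz, hd, smul_zero, zero_add, MvPolynomial.pderiv_X_self, smul_eq_mul,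
    mul_one] at h4
  have hQ0 : Q = 0 := by
    have := h4.symm
    exact pow_eq_zero_iff hp.ne_zero |>.mp this
  apply hQ
  rw [hQ0, map_zero]

theorem mem_of_forall_root {L : Type*} [Field L] {p : ℕ} [Fact p.Prime] [CharP L p]
    (l : Subfield L) [IsAlgClosed l]
    (hL : ∃ s : Finset L, Subfield.closure ((l : Set L) ∪ (s : Set L)) = ⊤) {b : L}
    (hb : ∀ n : ℕ, ∃ c : L, c ^ (p ^ n) = b) : b ∈ l := by
  classical
  by_contra hbl
  have hp : p.Prime := Fact.out
  have hess := essFiniteType_of_closure l hL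
  have htr : Transcendental l b := by
    intro halg
    have hint : IsIntegral l b := halg.isIntegral
    have hdeg := IsAlgClosed.degree_eq_one_of_irreducible l (minpoly.irreducible hint)
    obtain ⟨y, hy⟩ := minpoly.mem_range_of_degree_eq_one l b hdeg
    exact hbl (hy ▸ y.2)
  have hind : AlgebraicIndepOn l id ({b} : Set L) := by
    have := (algebraicIndependent_singleton_iff (R := l) (x := fun i : ({b} : Set L) => id (i : L))
      (⟨b, rfl⟩ : ({b} : Set L))).mpr htr
    exact this
  obtain ⟨T, hbT, hT⟩ := exists_isTranscendenceBasis_superset hind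
  have hbT' : b ∈ T := hbT rfl
  let E := IntermediateField.adjoin l (Set.range ((↑) : T → L))
  have halg : Algebra.IsAlgebraic E L := hT.isAlgebraic_field
  have hessE : Algebra.EssFiniteType E L := Algebra.EssFiniteType.of_comp l E L
  have hfin : Module.Finite E L := Algebra.finite_of_essFiniteType_of_isAlgebraic
  let N := Module.finrank E L
  obtain ⟨n, hn⟩ : ∃ n, N < p ^ n := ⟨N, Nat.lt_pow_self hp.one_lt⟩
  obtain ⟨c, hc⟩ := hb n
  have hbE : b ∈ E := IntermediateField.subset_adjoin _ _ ⟨⟨b, hbT'⟩, rfl⟩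
  have hcharE : CharP E p := (algebraMap E L).charP (algebraMap E L).injective p
  have hexpE : ExpChar E p := ExpChar.prime hp
  have h1 : (minpoly E c).natSepDegree = 1 :=
    (minpoly.natSepDegree_eq_one_iff_pow_mem p).mpr ⟨n, ⟨⟨b, hbE⟩, hc.symm⟩⟩
  obtain ⟨m, y, hy⟩ := (minpoly.natSepDegree_eq_one_iff_eq_X_pow_sub_C p).mp h1
  have hdeg : p ^ m ≤ N := by
    have h2 := minpoly.natDegree_le (A := E) c
    rwa [hy, natDegree_X_pow_sub_C] at h2
  have hmn : m < n := (Nat.pow_lt_pow_iff_right hp.one_lt).mp (lt_of_le_of_lt hdeg hn)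
  have hroot : c ^ (p ^ m) = (y : L) := by
    have h2 := minpoly.aeval E c
    rw [hy] at h2
    simp only [map_sub, map_pow, aeval_X, aeval_C] at h2
    exact sub_eq_zero.mp h2
  have hfinal : ((y : L) ^ (p ^ (n - m - 1))) ^ p = b := by
    rw [← hc, ← hroot, ← pow_mul, ← pow_mul]
    congr 1
    rw [← pow_succ, ← pow_add]
    congr 1
    omega
  exact no_pth_root_adjoin hT.1 (⟨b, hbT'⟩ : T) (pow_mem y.2 (p ^ (n - m - 1))) hfinal

end Fg

end Crest.Agent.S0010Lib
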