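import Crest.Agent.S0010Lib.Core

/-!
# S0010 library, part 3: from the differential core to a field isomorphism.
-/

set_option autoImplicit false

namespace Crest.Agent.S0010Lib

open Crest.NumberTheoryR.MilnorK

section Calculus

variable {M : Type*} [Field M] {p : ℕ} [Fact p.Prime] [CharP M p]

/-- Algebraic dependence in terms of derivations. -/
def Dep (u v : M) : Prop := ∀ D D' : Der M, D u * D' v = D' u * D v

omit [Fact p.Prime] in
lemma perp_cl_iff (u v : M) : Perp (cl p u) (cl p v) ↔ Dep u v := by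
  by_cases hu : u = 0
  · subst hu
    simp only [cl_zero]
    exact ⟨fun _ D D' => by simp, fun _ => Perp.zero_left _⟩
  by_cases hv : v = 0
  · subst hv
    simp only [cl_zero]
    constructor
    · intro _ D D'; simp
    · intro _ D D'; simp
  constructor
  · intro h D D'
    have := h D D'
    simp only [logD_cl] at this
    field_simp at this
    linear_combination this
  · intro h D D'
    have := h D D'
    simp only [logD_cl]
    field_simp
    linear_combination this

lemma cl_eq_zero_iff (u : M) : cl p u = 0 ↔ ∀ D : Der M, D u = 0 := by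
  by_cases hu : u = 0
  · subst hu; simp
  constructor
  · intro h D
    have := congrArg (logD (p := p) D) h
    rw [logD_cl, map_zero] at this
    rcases div_eq_zero_iff.mp this with h1 | h1
    · exact h1
    · exact absurd h1 hu
  · intro h
    apply eq_zero_of_logD
    intro D
    rw [logD_cl, h D, zero_div]

lemma exists_pow_of_const {u : M} (h : ∀ D : Der M, D u = 0) : ∃ e : M, e ^ p = u := by
  by_contra hcon
  have hnot : u ∉ (frobenius M p).fieldRange := by
    rintro ⟨c, rfl⟩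
    exact hcon ⟨c, rfl⟩
  obtain ⟨D, -, hD⟩ := exists_der_of_not_mem (p := p) (frobenius M p).fieldRange
    (fun c => ⟨c, rfl⟩) hnot
  exact hD (h D)

namespace Dep

variable {u v w : M}

lemma symm (h : Dep u v) : Dep v u := fun D D' => by
  have := h D' D
  linear_combination this

lemma self (u : M) : Dep u u := fun D D' => by ring

lemma add_right (h₁ : Dep u v) (h₂ : Dep u w) : Dep u (v + w) := fun D D' => by
  have h1 := h₁ D D'
  have h2 := h₂ D D'
  simp only [Derivation.map_add]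
  linear_combination h1 + h2

lemma sub_right (h₁ : Dep u v) (h₂ : Dep u w) : Dep u (v - w) := fun D D' => by
  have h1 := h₁ D D'
  have h2 := h₂ D D'
  simp only [Derivation.map_sub]
  linear_combination h1 - h2

lemma mul_right (h₁ : Dep u v) (h₂ : Dep u w) : Dep u (v * w) := fun D D' => by
  have h1 := h₁ D D'
  have h2 := h₂ D D'
  simp only [Derivation.leibniz, smul_eq_mul]
  linear_combination w * h1 + v * h2

lemma div_right (hw : w ≠ 0) (h₁ : Dep u v) (h₂ : Dep u w) : Dep u (v / w) := fun D D' => by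
  have h1 := h₁ D D'
  have h2 := h₂ D D'
  simp only [Derivation.leibniz_div, smul_eq_mul]
  linear_combination (w⁻¹ ^ 2 * w) * h1 - (w⁻¹ ^ 2 * v) * h2

lemma inv_right (hw : w ≠ 0) (h₂ : Dep u w) : Dep u w⁻¹ := by
  have h : w⁻¹ = 1 / w := by simp
  rw [h]
  exact div_right hw (fun D D' => by simp) h₂

lemma trans (h0 : ∃ D : Der M, D v ≠ 0) (h₁ : Dep u v) (h₂ : Dep v w) : Dep u w := fun D D' => by
  obtain ⟨D₀, hD₀⟩ := h0
  have a1 := h₁ D D₀
  have a3 := h₁ D' D₀
  have a5 := h₂ D D'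
  apply mul_left_cancel₀ hD₀
  linear_combination (D' w) * a1 - (D w) * a3 + (D₀ u) * a5

end Dep

lemma nsmul_ne_zero_of {n : ℕ} (hn : (n : M) ≠ 0) {ξ : V M p} (h : ξ ≠ 0) : n • ξ ≠ 0 := by
  obtain ⟨D, hD⟩ := exists_logD_ne h
  intro h0
  have := congrArg (logD D) h0
  rw [logD_nsmul, map_zero] at this
  rcases mul_eq_zero.mp this with h1 | h1
  · exact hn h1
  · exact hD h1

lemma nsmul_congr {n m : ℕ} (h : (n : M) = m) (ξ : V M p) : n • ξ = m • ξ := by
  apply logD_injective
  intro D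
  rw [logD_nsmul, logD_nsmul, h]

/-- Uniqueness of the pair `(n, t)`. -/
theorem uniq {ξ η : V M p} {t₁ t₂ : M} {n₁ n₂ : ℕ} (hn₁ : (n₁ : M) ≠ 0) (hn₂ : (n₂ : M) ≠ 0)
    (ht₁0 : t₁ ≠ 0) (ht₁1 : 1 + t₁ ≠ 0) (ht₂0 : t₂ ≠ 0) (ht₂1 : 1 + t₂ ≠ 0)
    (h₁ : cl p t₁ = n₁ • ξ) (h₁' : cl p (1 + t₁) = n₁ • η)
    (h₂ : cl p t₂ = n₂ • ξ) (h₂' : cl p (1 + t₂) = n₂ • η) (hNC : cl p t₁ ≠ 0) :
    t₁ = t₂ ∧ (n₁ : M) = n₂ := by
  obtain ⟨D, hD⟩ := exists_logD_ne hNC
  rw [logD_cl] at hD
  have hDt₁ : D t₁ ≠ 0 := fun h => hD (by rw [h, zero_div])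
  have a1 := congrArg (logD D) h₁
  have a2 := congrArg (logD D) h₁'
  have a3 := congrArg (logD D) h₂
  have a4 := congrArg (logD D) h₂'
  simp only [logD_nsmul, logD_cl, der_one_add] at a1 a2 a3 a4
  have hA : logD D ξ ≠ 0 := by
    intro h0
    rw [h0, mul_zero] at a1
    exact hD a1
  have hDt₂ : D t₂ ≠ 0 := by
    intro h0
    rw [h0, zero_div] at a3
    exact (mul_ne_zero hn₂ hA) a3.symm
  rw [div_eq_iff ht₁0] at a1
  rw [div_eq_iff ht₁1] at a2
  rw [div_eq_iff ht₂0] at a3
  rw [div_eq_iff ht₂1] at a4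
  have e1 : (n₂ : M) * D t₁ * t₂ = n₁ * D t₂ * t₁ := by
    linear_combination (n₂ : M) * t₂ * a1 - (n₁ : M) * t₁ * a3
  have e2 : (n₂ : M) * D t₁ * (1 + t₂) = n₁ * D t₂ * (1 + t₁) := by
    linear_combination (n₂ : M) * (1 + t₂) * a2 - (n₁ : M) * (1 + t₁) * a4
  have e3 : (n₂ : M) * D t₁ = n₁ * D t₂ := by linear_combination e2 - e1
  have e4 : (n₂ : M) * D t₁ * (t₂ - t₁) = 0 := by
    rw [e3] at e1 ⊢
    linear_combination e1
  have e5 : t₂ - t₁ = 0 :=
    (mul_eq_zero.mp e4).resolve_left (mul_ne_zero hn₂ hDt₁)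
  have e6 : t₁ = t₂ := (sub_eq_zero.mp e5).symm
  refine ⟨e6, ?_⟩
  subst e6
  have e7 : (((n₁ : M) - n₂) * logD D ξ) * t₁ = 0 := by linear_combination a3 - a1
  have e8 := (mul_eq_zero.mp e7).resolve_right ht₁0
  exact sub_eq_zero.mp ((mul_eq_zero.mp e8).resolve_right hA)

/-- A derivation basis dual to a `p`-independent pair. -/
lemma exists_dual_ders {x y : M} (hx : x ≠ 0) (hy : y ≠ 0) (h : ¬ Perp (cl p x) (cl p y)) :
    ∃ D₁ D₂ : Der M, D₁ x = x ∧ D₁ y = 0 ∧ D₂ x = 0 ∧ D₂ y = y := by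
  rw [perp_cl_iff] at h
  unfold Dep at h
  push Not at h
  obtain ⟨D, D', hDD⟩ := h
  obtain ⟨Δ, hΔdef⟩ : ∃ Δ : M, Δ = D x * D' y - D' x * D y := ⟨_, rfl⟩
  have hΔ : Δ ≠ 0 := by rw [hΔdef]; exact sub_ne_zero.mpr hDD
  refine ⟨((x * D' y) / Δ) • D - ((x * D y) / Δ) • D',
    (-(y * D' x) / Δ) • D + ((y * D x) / Δ) • D', ?_, ?_, ?_, ?_⟩
  · simp only [Derivation.sub_apply, Derivation.smul_apply, smul_eq_mul]
    rw [div_mul_eq_mul_div, div_mul_eq_mul_div, ← sub_div, div_eq_iff hΔ, hΔdef]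
    ring
  · simp only [Derivation.sub_apply, Derivation.smul_apply, smul_eq_mul]
    ring
  · simp only [Derivation.add_apply, Derivation.smul_apply, smul_eq_mul]
    ring
  · simp only [Derivation.add_apply, Derivation.smul_apply, smul_eq_mul]
    rw [div_mul_eq_mul_div, div_mul_eq_mul_div, ← add_div, div_eq_iff hΔ, hΔdef]
    ring

end Calculus

section Main

variable {K L : Type*} [Field K] [Field L] {p : ℕ} [Fact p.Prime] [CharP K p] [CharP L p]

/-- Compatibility: the image under `τ` of Steinberg pairs is `p`-dependent. -/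
def Compat (τ : V K p ≃+ V L p) : Prop :=
  ∀ f : K, f ≠ 0 → f ≠ 1 → Perp (τ (cl p f)) (τ (cl p (1 - f)))

/-- `τ` preserves `p`-dependence. -/
theorem perp_map {τ : V K p ≃+ V L p} (hτ : Compat τ) {a b : K}
    (h : Perp (cl p a) (cl p b)) : Perp (τ (cl p a)) (τ (cl p b)) := by
  by_cases h0 : cl p a = 0
  · rw [h0, map_zero]; exact Perp.zero_left _
  have hξ : τ (cl p a) ≠ 0 := fun h' => h0 (by simpa using h')
  have hzero : Perp (τ (cl p a)) 0 := fun D D' => by simp
  let C : Subfield K :=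
    { carrier := {c | Perp (τ (cl p a)) (τ (cl p c))}
      mul_mem' := by
        intro c d hc hd
        by_cases hc0 : c = 0
        · subst hc0; simpa using hzero
        by_cases hd0 : d = 0
        · subst hd0; simpa using hzero
        show Perp _ _
        rw [cl_mul hc0 hd0, map_add]
        exact Perp.add_right hc hd
      one_mem' := by
        show Perp _ _
        rw [cl_one, map_zero]; exact hzero
      add_mem' := by
        intro c d hc hd
        by_cases hc0 : c = 0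
        · subst hc0; simpa using hd
        by_cases hcd : c + d = 0
        · show Perp _ _
          rw [hcd, cl_zero, map_zero]; exact hzero
        have hs1 : 1 + d / c ≠ 0 := by
          intro h'
          apply hcd
          field_simp at h'
          linear_combination h'
        have hcds : c + d = c * (1 + d / c) := by field_simp
        show Perp _ _
        rw [hcds, cl_mul hc0 hs1, map_add]
        refine Perp.add_right hc ?_
        by_cases hd0 : d = 0
        · subst hd0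
          simp only [zero_div, add_zero, cl_one, map_zero]
          exact hzero
        have hs0 : d / c ≠ 0 := div_ne_zero hd0 hc0
        have hperps : Perp (τ (cl p a)) (τ (cl p (d / c))) := by
          rw [cl_div hd0 hc0, map_sub]
          exact Perp.sub_right hd hc
        by_cases hs : cl p (d / c) = 0
        · have h2 : cl p (1 + d / c) = 0 := by
            rw [cl_eq_zero_iff] at hs ⊢
            intro D
            rw [der_one_add, hs]
          rw [h2, map_zero]; exact hzero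
        have hne : τ (cl p (d / c)) ≠ 0 := fun h' => hs (by simpa using h')
        have hst := hτ (-(d / c)) (neg_ne_zero.mpr hs0) (by
          intro h'
          apply hs1
          rw [← h']
          ring)
        rw [cl_neg, sub_neg_eq_add] at hst
        exact Perp.trans hne hperps.symm hst
      zero_mem' := by
        show Perp _ _
        rw [cl_zero, map_zero]; exact hzero
      neg_mem' := by
        intro c hc
        show Perp _ _
        rw [cl_neg]; exact hc
      inv_mem' := by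
        intro c hc
        show Perp _ _
        rw [cl_inv, map_neg]
        exact Perp.neg_right hc }
  have hmem : ∀ c, c ∈ C ↔ Perp (τ (cl p a)) (τ (cl p c)) := fun c => Iff.rfl
  have hpowC : ∀ c : K, c ^ p ∈ C := by
    intro c
    rw [hmem, cl_pow_char, map_zero]
    exact hzero
  have haC : a ∈ C := (hmem a).mpr (Perp.self _)
  by_contra hb
  have hbC : b ∉ C := fun h' => hb ((hmem b).mp h')
  obtain ⟨D, hDC, hDb⟩ := exists_der_of_not_mem (p := p) C hpowC hbC
  rw [perp_cl_iff] at h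
  have hDa := hDC a haC
  have hb0 : ∀ D₀ : Der K, D₀ a = 0 := by
    intro D₀
    have := h D₀ D
    rw [hDa, zero_mul] at this
    exact (mul_eq_zero.mp this).resolve_right hDb
  exact h0 ((cl_eq_zero_iff a).mpr hb0)

/-- `τ⁻¹` preserves `p`-dependence too. -/
theorem perp_of_map {τ : V K p ≃+ V L p} (hτ' : Compat τ.symm) {ξ η : V K p}
    (h : Perp (τ ξ) (τ η)) : Perp ξ η := by
  obtain ⟨a, -, ha⟩ := cl_surj (τ ξ)
  obtain ⟨b, -, hb⟩ := cl_surj (τ η)
  have := perp_map hτ' (a := a) (b := b) (by rw [ha, hb]; exact h)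
  rw [ha, hb] at this
  simpa using this

omit [Fact p.Prime] in
lemma perp_nsmul_cancel {n : ℕ} (hn : (n : L) ≠ 0) {ξ η : V L p}
    (h : Perp (n • ξ) (n • η)) : Perp ξ η := fun D D' => by
  have := h D D'
  simp only [logD_nsmul] at this
  apply mul_left_cancel₀ (mul_ne_zero hn hn)
  linear_combination this

section Basics

variable {M : Type*} [Field M] [CharP M p]

lemma one_add_ne_zero_of_NC {x : M} (h : cl p x ≠ 0) : 1 + x ≠ 0 := by
  intro h0
  apply h
  have : x = -1 := by linear_combination h0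
  rw [this, cl_neg, cl_one]

lemma no_mul {x : M} (hNC : cl p x ≠ 0) (j : ℕ) : cl p (1 + x) ≠ j • cl p x := by
  intro e
  have hx0 : x ≠ 0 := by
    rintro rfl
    simp at hNC
  have h1 := one_add_ne_zero_of_NC hNC
  obtain ⟨D, hD⟩ := exists_logD_ne hNC
  rw [logD_cl] at hD
  have hDx : D x ≠ 0 := fun h => hD (by rw [h, zero_div])
  have a1 := congrArg (logD D) e
  rw [logD_nsmul, logD_cl, logD_cl, der_one_add] at a1
  field_simp at a1
  have a2 : x = j * (1 + x) := by linear_combination a1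
  have a3 := congrArg D a2
  rw [Derivation.leibniz, der_one_add, Derivation.map_natCast] at a3
  simp only [smul_eq_mul] at a3
  have a4 : (1 - (j : M)) * D x = 0 := by linear_combination a3
  have a5 := (mul_eq_zero.mp a4).resolve_right hDx
  have a6 : (j : M) = 1 := (sub_eq_zero.mp a5).symm
  rw [a6] at a2
  have : (1 : M) = 0 := by linear_combination -a2
  exact one_ne_zero this

omit [CharP M p] [Fact p.Prime] in
lemma not_dep_ne_zero_left {x y : M} (h : ¬ Dep x y) : x ≠ 0 := by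
  rintro rfl
  exact h (fun D D' => by simp)

omit [CharP M p] [Fact p.Prime] in
lemma not_dep_ne_zero_right {x y : M} (h : ¬ Dep x y) : y ≠ 0 := by
  rintro rfl
  exact h (fun D D' => by simp)

lemma not_dep_NC_left {x y : M} (h : ¬ Dep x y) : cl p x ≠ 0 := by
  intro h0
  rw [cl_eq_zero_iff] at h0
  exact h (fun D D' => by rw [h0 D, h0 D']; ring)

lemma not_dep_NC_right {x y : M} (h : ¬ Dep x y) : cl p y ≠ 0 := by
  intro h0
  rw [cl_eq_zero_iff] at h0
  exact h (fun D D' => by rw [h0 D, h0 D']; ring)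

lemma not_dep_add_NC {x y : M} (h : ¬ Dep x y) : cl p (x + y) ≠ 0 := by
  intro h0
  rw [cl_eq_zero_iff] at h0
  apply h
  intro D D'
  have h1 := h0 D
  have h2 := h0 D'
  rw [Derivation.map_add] at h1 h2
  have h3 : D y = - D x := by linear_combination h1
  have h4 : D' y = - D' x := by linear_combination h2
  rw [h3, h4]
  ring

lemma NC_exists_der {x : M} (h : cl p x ≠ 0) : ∃ D : Der M, D x ≠ 0 := by
  by_contra hcon
  push Not at hcon
  exact h ((cl_eq_zero_iff x).mpr hcon)

lemma NC_add_const {f w : M} (hf : cl p f = 0) (hw : cl p w ≠ 0) : cl p (f + w) ≠ 0 := by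
  intro h0
  rw [cl_eq_zero_iff] at h0 hf
  apply hw
  rw [cl_eq_zero_iff]
  intro D
  have := h0 D
  rw [Derivation.map_add, hf D, zero_add] at this
  exact this

omit [CharP M p] [Fact p.Prime] in
lemma dep_add_const_iff {f x y : M} (hf : ∀ D : Der M, D f = 0) : Dep (f + x) y ↔ Dep x y := by
  constructor
  · intro h D D'
    have := h D D'
    simpa [Derivation.map_add, hf] using this
  · intro h D D'
    have := h D D'
    simpa [Derivation.map_add, hf] using this

omit [CharP M p] [Fact p.Prime] in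
lemma dep_one_add (x : M) : Dep x (1 + x) := fun D D' => by
  simp only [der_one_add]
  ring

lemma exists_partner (hK : ∃ a b : M, ¬ Dep a b) {x : M} (hx : cl p x ≠ 0) : ∃ y : M, ¬ Dep x y := by
  obtain ⟨a, b, hab⟩ := hK
  by_contra hcon
  push Not at hcon
  exact hab (Dep.trans (NC_exists_der hx) (hcon a).symm (hcon b))

lemma self_map_id (hK : ∃ a b : M, ¬ Dep a b) (β : M →+* M) {m : ℕ} (hm : (m : M) ≠ 0)
    (hβ : ∀ u : M, cl p (β u) = m • cl p u) : ∀ u : M, β u = u := by
  have hNCcase : ∀ u : M, cl p u ≠ 0 → β u = u := by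
    intro u hu
    have hu0 : u ≠ 0 := by
      rintro rfl
      simp at hu
    have h1u := one_add_ne_zero_of_NC hu
    have hβ1 : β u ≠ 0 := (map_ne_zero β).mpr hu0
    have hβ2 : 1 + β u ≠ 0 := by
      have : 1 + β u = β (1 + u) := by simp
      rw [this]
      exact (map_ne_zero β).mpr h1u
    have := uniq (p := p) (ξ := cl p u) (η := cl p (1 + u)) (t₁ := u) (t₂ := β u) (n₁ := 1) (n₂ := m)
      (by simp) hm hu0 h1u hβ1 hβ2 (by simp) (by simp) (hβ u)
      (by
        have : 1 + β u = β (1 + u) := by simp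
        rw [this]
        exact hβ (1 + u)) hu
    exact this.1.symm
  intro u
  by_cases hu : cl p u = 0
  · obtain ⟨a, b, hab⟩ := hK
    have ha := not_dep_NC_left (p := p) hab
    have h1 := hNCcase (u + a) (by rw [add_comm]; exact (by
      rw [add_comm]; exact NC_add_const hu ha))
    have h2 := hNCcase a ha
    rw [map_add, h2] at h1
    exact add_right_cancel h1
  · exact hNCcase u hu

end Basics

/-- The local structure theorem (for a `p`-independent pair). -/
theorem local_struct {τ : V K p ≃+ V L p} (hτ : Compat τ) (hτ' : Compat τ.symm) {x y : K}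
    (h : ¬ Dep x y) :
    ∃ n : ℕ, (n : L) ≠ 0 ∧ ∃ t t₂ : L, t ≠ 0 ∧ 1 + t ≠ 0 ∧ t₂ ≠ 0 ∧ 1 + t₂ ≠ 0 ∧ 1 + t + t₂ ≠ 0 ∧
      cl p t = n • τ (cl p x) ∧ cl p (1 + t) = n • τ (cl p (1 + x)) ∧
      cl p t₂ = n • τ (cl p y) ∧ cl p (1 + t₂) = n • τ (cl p (1 + y)) ∧
      cl p (1 + t + t₂) = n • τ (cl p (1 + x + y)) := by
  have hx0 := not_dep_ne_zero_left h
  have hy0 := not_dep_ne_zero_right h
  have hxNC := not_dep_NC_left (p := p) h
  have hyNC := not_dep_NC_right (p := p) h
  have h1x := one_add_ne_zero_of_NC hxNC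
  have h1y := one_add_ne_zero_of_NC hyNC
  have hz0 : 1 + x + y ≠ 0 := by
    intro h0
    apply h
    intro D D'
    have e : y = -(1 + x) := by linear_combination h0
    rw [e]
    simp only [map_neg, der_one_add]
    ring
  obtain ⟨x', hx'0, hx'⟩ := cl_surj (τ (cl p x))
  obtain ⟨y', hy'0, hy'⟩ := cl_surj (τ (cl p y))
  obtain ⟨v', hv'0, hv'⟩ := cl_surj (τ (cl p (1 + x)))
  obtain ⟨w', hw'0, hw'⟩ := cl_surj (τ (cl p (1 + y)))
  obtain ⟨z', hz'0, hz'⟩ := cl_surj (τ (cl p (1 + x + y)))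
  have hind : ¬ Perp (cl p x') (cl p y') := by
    rw [hx', hy']
    intro hP
    have := perp_of_map hτ' hP
    rw [perp_cl_iff] at this
    exact h this
  obtain ⟨D₁, D₂, h11, h12, h21, h22⟩ := exists_dual_ders hx'0 hy'0 hind
  have hxv : Perp (cl p x') (cl p v') := by
    rw [hx', hv']
    have := hτ (-x) (neg_ne_zero.mpr hx0) (by
      intro h'
      apply h1x
      rw [← h']
      ring)
    rwa [cl_neg, sub_neg_eq_add] at this
  have hyw : Perp (cl p y') (cl p w') := by
    rw [hy', hw']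
    have := hτ (-y) (neg_ne_zero.mpr hy0) (by
      intro h'
      apply h1y
      rw [← h']
      ring)
    rwa [cl_neg, sub_neg_eq_add] at this
  have hz1 : Perp (cl p y' - cl p v') (cl p z' - cl p v') := by
    rw [hy', hv', hz']
    have e : 1 - (-(y / (1 + x))) = (1 + x + y) / (1 + x) := by
      field_simp
      ring
    have := hτ (-(y / (1 + x))) (neg_ne_zero.mpr (div_ne_zero hy0 h1x)) (by
      intro h'
      have h2 : 1 - (-(y / (1 + x))) = 0 := by rw [h']; ring
      rw [e] at h2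
      exact (div_ne_zero hz0 h1x) h2)
    rwa [e, cl_neg, cl_div hy0 h1x, cl_div hz0 h1x, map_sub, map_sub] at this
  have hz2 : Perp (cl p x' - cl p w') (cl p z' - cl p w') := by
    rw [hx', hw', hz']
    have e : 1 - (-(x / (1 + y))) = (1 + x + y) / (1 + y) := by
      field_simp
      ring
    have := hτ (-(x / (1 + y))) (neg_ne_zero.mpr (div_ne_zero hx0 h1y)) (by
      intro h'
      have h2 : 1 - (-(x / (1 + y))) = 0 := by rw [h']; ring
      rw [e] at h2
      exact (div_ne_zero hz0 h1y) h2)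
    rwa [e, cl_neg, cl_div hx0 h1y, cl_div hz0 h1y, map_sub, map_sub] at this
  have hno : ∀ j : ℕ, cl p v' ≠ j • cl p x' := by
    intro j e
    rw [hv', hx', ← map_nsmul] at e
    exact no_mul hxNC j (τ.injective e)
  have hw0 : cl p w' ≠ 0 := by
    intro e
    rw [hw'] at e
    have e2 : cl p (1 + y) = 0 := by simpa using e
    exact no_mul hyNC 0 (by rw [e2]; simp)
  have hw1 : cl p w' ≠ cl p y' := by
    intro e
    rw [hw', hy'] at e
    have e2 := τ.injective e
    exact no_mul hyNC 1 (by rw [e2]; simp)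
  obtain ⟨n, hn, t, t₂, a1, a2, a3, a4, a5, a6, a7, a8, a9, a10⟩ :=
    core hx'0 hy'0 hv'0 hw'0 hz'0 D₁ D₂ h11 h12 h21 h22 hxv hyw hz1 hz2 hno hw0 hw1
  refine ⟨n, hn, t, t₂, a1, a2, a3, a4, a5, ?_, ?_, ?_, ?_, ?_⟩
  · rw [a6, hx']
  · rw [a7, hv']
  · rw [a8, hy']
  · rw [a9, hw']
  · rw [a10, hz']

/-- The data produced by the local structure theorem, globally. -/
structure GData (τ : V K p ≃+ V L p) (n : ℕ) (A : K → L) : Prop where
  hn : (n : L) ≠ 0
  ne0 : ∀ x, cl p x ≠ 0 → A x ≠ 0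
  ne1 : ∀ x, cl p x ≠ 0 → 1 + A x ≠ 0
  cl1 : ∀ x, cl p x ≠ 0 → cl p (A x) = n • τ (cl p x)
  cl2 : ∀ x, cl p x ≠ 0 → cl p (1 + A x) = n • τ (cl p (1 + x))
  ne2 : ∀ x y, ¬ Dep x y → 1 + A x + A y ≠ 0
  cl3 : ∀ x y, ¬ Dep x y → cl p (1 + A x + A y) = n • τ (cl p (1 + x + y))

theorem exists_gdata {τ : V K p ≃+ V L p} (hτ : Compat τ) (hτ' : Compat τ.symm)
    (hK : ∃ a b : K, ¬ Dep a b) : ∃ n A, GData τ n A := by
  classical
  obtain ⟨a₀, b₀, hab⟩ := hK
  obtain ⟨n₀, hn₀, ta, tb, a1, a2, a3, a4, -, a6, a7, a8, a9, -⟩ := local_struct hτ hτ' hab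
  have hτne : ∀ x : K, cl p x ≠ 0 → τ (cl p x) ≠ 0 := by
    intro x hx h0
    exact hx (by simpa using h0)
  have hne : ∀ {n : ℕ} {x : K}, (n : L) ≠ 0 → cl p x ≠ 0 → n • τ (cl p x) ≠ 0 :=
    fun {_ x} hn hx => nsmul_ne_zero_of hn (hτne x hx)
  have hP : ∀ x : K, cl p x ≠ 0 → ∃ t : L, t ≠ 0 ∧ 1 + t ≠ 0 ∧ cl p t = n₀ • τ (cl p x) ∧
      cl p (1 + t) = n₀ • τ (cl p (1 + x)) := by
    intro x hx
    have hchoice : ∃ (c tc : L) (c' : K), c = c ∧ ¬ Dep x c' ∧ tc ≠ 0 ∧ 1 + tc ≠ 0 ∧
        cl p tc = n₀ • τ (cl p c') ∧ cl p (1 + tc) = n₀ • τ (cl p (1 + c')) := by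
      by_cases h1 : Dep x a₀
      · by_cases h2 : Dep x b₀
        · exact absurd (Dep.trans (NC_exists_der hx) h1.symm h2) hab
        · exact ⟨0, tb, b₀, rfl, h2, a3, a4, a8, a9⟩
      · exact ⟨0, ta, a₀, rfl, h1, a1, a2, a6, a7⟩
    obtain ⟨-, tc, c', -, hdep, b1, b2, b3, b4⟩ := hchoice
    obtain ⟨n₁, hn₁, t, t₂, e1, e2, e3, e4, -, e6, e7, e8, e9, -⟩ := local_struct hτ hτ' hdep
    have hu := uniq (p := p) hn₁ hn₀ e3 e4 b1 b2 e8 e9 b3 b4
      (by rw [e8]; exact hne hn₁ (not_dep_NC_right hdep))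
    refine ⟨t, e1, e2, ?_, ?_⟩
    · rw [e6]; exact nsmul_congr hu.2 _
    · rw [e7]; exact nsmul_congr hu.2 _
  let A : K → L := fun x => if h : cl p x ≠ 0 then Classical.choose (hP x h) else 0
  have hA : ∀ x (h : cl p x ≠ 0), A x ≠ 0 ∧ 1 + A x ≠ 0 ∧ cl p (A x) = n₀ • τ (cl p x) ∧
      cl p (1 + A x) = n₀ • τ (cl p (1 + x)) := by
    intro x h
    have : A x = Classical.choose (hP x h) := by simp only [A, dif_pos h]
    rw [this]
    exact Classical.choose_spec (hP x h)
  have hpair : ∀ x y, ¬ Dep x y → 1 + A x + A y ≠ 0 ∧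
      cl p (1 + A x + A y) = n₀ • τ (cl p (1 + x + y)) := by
    intro x y hdep
    obtain ⟨n₁, hn₁, t, t₂, e1, e2, e3, e4, e5, e6, e7, e8, e9, e10⟩ := local_struct hτ hτ' hdep
    have hx := not_dep_NC_left (p := p) hdep
    have hy := not_dep_NC_right (p := p) hdep
    obtain ⟨c1, c2, c3, c4⟩ := hA x hx
    obtain ⟨d1, d2, d3, d4⟩ := hA y hy
    have hu1 := uniq (p := p) hn₁ hn₀ e1 e2 c1 c2 e6 e7 c3 c4 (by rw [e6]; exact hne hn₁ hx)
    have hu2 := uniq (p := p) hn₁ hn₀ e3 e4 d1 d2 e8 e9 d3 d4 (by rw [e8]; exact hne hn₁ hy)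
    rw [← hu1.1, ← hu2.1]
    refine ⟨e5, ?_⟩
    rw [e10]
    exact nsmul_congr hu1.2 _
  exact ⟨n₀, A, hn₀, fun x h => (hA x h).1, fun x h => (hA x h).2.1, fun x h => (hA x h).2.2.1,
    fun x h => (hA x h).2.2.2, fun x y h => (hpair x y h).1, fun x y h => (hpair x y h).2⟩

end Main

end Crest.Agent.S0010Lib
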