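import Crest.Agent.S0010Lib.Global

/-!
# S0010 library, part 4: the data `A` is additive and multiplicative; it extends to a ring hom.
-/

set_option autoImplicit false

namespace Crest.Agent.S0010Lib

open Crest.NumberTheoryR.MilnorK

section GD

variable {K L : Type*} [Field K] [Field L] {p : ℕ} [Fact p.Prime] [CharP K p] [CharP L p]
variable {τ : V K p ≃+ V L p} {n : ℕ} {A : K → L}

namespace GData

lemma unique (G : GData τ n A) {x : K} (hx : cl p x ≠ 0) {t : L} (h0 : t ≠ 0) (h1 : 1 + t ≠ 0)
    (h2 : cl p t = n • τ (cl p x)) (h3 : cl p (1 + t) = n • τ (cl p (1 + x))) : t = A x := by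
  have hτx : τ (cl p x) ≠ 0 := fun h' => hx (by simpa using h')
  exact (uniq G.hn G.hn h0 h1 (G.ne0 x hx) (G.ne1 x hx) h2 h3 (G.cl1 x hx) (G.cl2 x hx)
    (by rw [h2]; exact nsmul_ne_zero_of G.hn hτx)).1

lemma inv (G : GData τ n A) {x : K} (hx : cl p x ≠ 0) : A x⁻¹ = (A x)⁻¹ := by
  have hx0 : x ≠ 0 := by
    rintro rfl
    simp at hx
  have h1x := one_add_ne_zero_of_NC hx
  have hxi : cl p x⁻¹ ≠ 0 := by rw [cl_inv]; exact neg_ne_zero.mpr hx
  have e : 1 + x⁻¹ = (1 + x) / x := by field_simp; ring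
  have a0 := G.ne0 x hx
  have a1 := G.ne1 x hx
  have e' : 1 + (A x)⁻¹ = (1 + A x) / A x := by field_simp; ring
  symm
  apply G.unique hxi (inv_ne_zero a0)
  · rw [e']; exact div_ne_zero a1 a0
  · rw [cl_inv, G.cl1 x hx, cl_inv, map_neg, smul_neg]
  · rw [e', cl_div a1 a0, G.cl2 x hx, G.cl1 x hx, e, cl_div h1x hx0, map_sub, nsmul_sub]

lemma not_dep (hτ' : Compat τ.symm) (G : GData τ n A) {x y : K} (h : ¬ Dep x y) :
    ¬ Dep (A x) (A y) := by
  intro hd
  rw [← perp_cl_iff (p := p), G.cl1 x (not_dep_NC_left h), G.cl1 y (not_dep_NC_right h)] at hd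
  have h2 := perp_of_map hτ' (perp_nsmul_cancel G.hn hd)
  rw [perp_cl_iff] at h2
  exact h h2

lemma add_div (hτ' : Compat τ.symm) (G : GData τ n A) {x y : K} (h : ¬ Dep x y) :
    A (x + y) = A x + A y ∧ A (y / x) = A y / A x := by
  have hx := not_dep_NC_left (p := p) h
  have hy := not_dep_NC_right (p := p) h
  have hx0 := not_dep_ne_zero_left h
  have hy0 := not_dep_ne_zero_right h
  have hxyNC := not_dep_add_NC (p := p) h
  have hdiv : cl p (y / x) ≠ 0 := by
    rw [cl_div hy0 hx0]
    intro e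
    apply h
    rw [← perp_cl_iff (p := p), sub_eq_zero.mp e]
    exact Perp.self _
  have hxy0 : x + y ≠ 0 := by
    intro e
    apply hxyNC
    rw [e]
    simp
  have h1y : 1 + y / x = (x + y) / x := by field_simp
  have ha0 := G.ne0 x hx
  have hb0 := G.ne0 y hy
  have hcla := G.cl1 x hx
  have hclb := G.cl1 y hy
  have hs0 := G.ne0 _ hxyNC
  have hs1 := G.ne1 _ hxyNC
  have hcls := G.cl1 _ hxyNC
  have hcl1s := G.cl2 _ hxyNC
  have hr0 := G.ne0 _ hdiv
  have hr1 := G.ne1 _ hdiv
  have hclr := G.cl1 _ hdiv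
  have hcl1r := G.cl2 _ hdiv
  have hT0 := G.ne2 x y h
  have hclT := G.cl3 x y h
  have E1s : cl p (1 + A (x + y)) = cl p (1 + A x + A y) := by
    rw [hcl1s, hclT, add_assoc]
  have Er : cl p (A (y / x)) = cl p (A y) - cl p (A x) := by
    rw [hclr, cl_div hy0 hx0, map_sub, nsmul_sub, hclb, hcla]
  have Er1 : cl p (1 + A (y / x)) = cl p (A (x + y)) - cl p (A x) := by
    rw [hcl1r, h1y, cl_div hxy0 hx0, map_sub, nsmul_sub, hcls, hcla]
  have hnd : ¬ Perp (cl p (A x)) (cl p (A y)) := by
    rw [perp_cl_iff]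
    exact G.not_dep hτ' h
  obtain ⟨Da, Db, h1, h2, h3, h4⟩ := exists_dual_ders ha0 hb0 hnd
  generalize A x = a at *
  generalize A y = b at *
  generalize A (x + y) = s at *
  generalize A (y / x) = r at *
  have r1 := congrArg (logD Da) Er
  have r2 := congrArg (logD Da) Er1
  have r3 := congrArg (logD Da) E1s
  have r1' := congrArg (logD Db) Er
  have r2' := congrArg (logD Db) Er1
  have r3' := congrArg (logD Db) E1s
  have hDT : ∀ D : Der L, D (1 + a + b) = D a + D b := by
    intro D
    rw [Derivation.map_add, der_one_add]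
  simp only [map_sub, logD_cl, der_one_add, hDT, h1, h2, h3, h4] at r1 r2 r3 r1' r2' r3'
  have haa : a / a = 1 := div_self ha0
  have hbb : b / b = 1 := div_self hb0
  simp only [haa, hbb, zero_div, add_zero, zero_add, sub_zero, zero_sub] at r1 r2 r3 r1' r2' r3'
  have q1 : Da r = -r := by
    rw [div_eq_iff hr0] at r1
    linear_combination r1
  have q1' : Db r = r := by
    rw [div_eq_iff hr0] at r1'
    linear_combination r1'
  rw [q1] at r2
  rw [q1'] at r2'
  have q2 : Da s * (1 + r) = s := by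
    field_simp at r2
    linear_combination -r2
  have q2' : Db s * (1 + r) = s * r := by
    field_simp at r2'
    linear_combination -r2'
  have q3 : Da s * (1 + a + b) = a * (1 + s) := by
    field_simp at r3
    linear_combination r3
  have q3' : Db s * (1 + a + b) = b * (1 + s) := by
    field_simp at r3'
    linear_combination r3'
  have E1 : s * (1 + a + b) = a * (1 + r) * (1 + s) := by
    linear_combination (1 + a + b) * (-q2) + (1 + r) * q3
  have E2 : s * r * (1 + a + b) = b * (1 + r) * (1 + s) := by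
    linear_combination (1 + a + b) * (-q2') + (1 + r) * q3'
  have E3 : (b - a * r) * ((1 + r) * (1 + s)) = 0 := by
    linear_combination r * E1 - E2
  have E4 : b = a * r :=
    sub_eq_zero.mp ((mul_eq_zero.mp E3).resolve_right (mul_ne_zero hr1 hs1))
  have E5 : s = a + b := by
    rw [E4] at E1 ⊢
    linear_combination E1
  refine ⟨E5, ?_⟩
  rw [E4]
  field_simp

lemma one_add (hK : ∃ a b : K, ¬ Dep a b) (hτ' : Compat τ.symm) (G : GData τ n A) {x : K}
    (hx : cl p x ≠ 0) : A (1 + x) = 1 + A x := by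
  obtain ⟨y, hy⟩ := exists_partner hK hx
  have h1NC : cl p (1 + x) ≠ 0 := by
    intro e
    rw [cl_eq_zero_iff] at e
    apply hx
    rw [cl_eq_zero_iff]
    intro D
    rw [← der_one_add, e]
  have h1 : ¬ Dep (1 + x) y := by
    intro hd
    exact hy (Dep.trans (NC_exists_der h1NC) (dep_one_add x) hd)
  have hadd := (G.add_div hτ' h1).1
  have hsNC : cl p (1 + x + y) ≠ 0 := not_dep_add_NC h1
  have hyNC := not_dep_NC_right (p := p) hy
  have hq : cl p (A (1 + x)) = cl p (1 + A x) := by
    rw [G.cl1 _ h1NC, G.cl2 _ hx]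
  have hqb : cl p (A (1 + x) + A y) = cl p (1 + A x + A y) := by
    rw [← hadd, G.cl1 _ hsNC, G.cl3 _ _ hy]
  have hq0 := G.ne0 _ h1NC
  have hqb0 : A (1 + x) + A y ≠ 0 := by
    rw [← hadd]; exact G.ne0 _ hsNC
  have hT0 := G.ne2 x y hy
  have ha1 := G.ne1 x hx
  have hb0 := G.ne0 y hyNC
  have ha0 := G.ne0 x hx
  have hnd : ¬ Perp (cl p (A x)) (cl p (A y)) := by
    rw [perp_cl_iff]
    exact G.not_dep hτ' hy
  obtain ⟨Da, Db, h1, h2, h3, h4⟩ := exists_dual_ders ha0 hb0 hnd
  generalize A x = a at *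
  generalize A y = b at *
  generalize A (1 + x) = q at *
  have t1 := congrArg (logD Db) hq
  have t2 := congrArg (logD Db) hqb
  have hDT : ∀ D : Der L, D (1 + a + b) = D a + D b := by
    intro D
    rw [Derivation.map_add, der_one_add]
  simp only [logD_cl] at t1 t2
  rw [der_one_add, h3, zero_div] at t1
  rw [Derivation.map_add, hDT, h3, h4, zero_add] at t2
  have t3 : Db q = 0 := by
    rcases div_eq_zero_iff.mp t1 with h' | h'
    · exact h'
    · exact absurd h' hq0
  rw [t3, zero_add] at t2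
  field_simp at t2
  linear_combination -t2

lemma mul_ind (hτ' : Compat τ.symm) (G : GData τ n A) {x y : K} (h : ¬ Dep x y) :
    A (x * y) = A x * A y := by
  have hx := not_dep_NC_left (p := p) h
  have hx0 := not_dep_ne_zero_left h
  have hxi : x⁻¹ ≠ 0 := inv_ne_zero hx0
  have h1 : ¬ Dep x⁻¹ y := by
    intro hd
    apply h
    have h2 : Dep y x⁻¹ := hd.symm
    have h3 := Dep.inv_right hxi h2
    rw [inv_inv] at h3
    exact h3.symm
  have h2 := (G.add_div hτ' h1).2
  have h3 : y / x⁻¹ = x * y := by field_simp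
  rw [h3, G.inv hx] at h2
  rw [h2]
  have := G.ne0 x hx
  field_simp

lemma add_of_NC (hK : ∃ a b : K, ¬ Dep a b) (hτ' : Compat τ.symm) (G : GData τ n A) {x y : K}
    (hx : cl p x ≠ 0) (hy : cl p y ≠ 0) (hxy : cl p (x + y) ≠ 0) : A (x + y) = A x + A y := by
  by_cases hd : Dep x y
  · obtain ⟨w, hw⟩ := exists_partner hK hx
    have h1 : ¬ Dep y w := fun h' => hw (Dep.trans (NC_exists_der hy) hd h')
    have h2 : ¬ Dep (x + y) w := by
      intro h'
      apply hw
      exact Dep.trans (NC_exists_der hxy) ((Dep.self x).add_right hd) h'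
    have h3 : ¬ Dep x (y + w) := by
      intro h'
      apply hw
      have := h'.sub_right hd
      rwa [add_sub_cancel_left] at this
    have e1 := (G.add_div hτ' h2).1
    have e2 := (G.add_div hτ' h3).1
    have e3 := (G.add_div hτ' h1).1
    have e4 : x + y + w = x + (y + w) := by ring
    rw [e4, e2, e3] at e1
    linear_combination -e1
  · exact (G.add_div hτ' hd).1

lemma mul_of_NC (hK : ∃ a b : K, ¬ Dep a b) (hτ' : Compat τ.symm) (G : GData τ n A) {x y : K}
    (hx : cl p x ≠ 0) (hy : cl p y ≠ 0) (hxy : cl p (x * y) ≠ 0) : A (x * y) = A x * A y := by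
  by_cases hd : Dep x y
  · obtain ⟨w, hw⟩ := exists_partner hK hx
    have hy0 : y ≠ 0 := by
      rintro rfl
      simp at hy
    have h1 : ¬ Dep y w := fun h' => hw (Dep.trans (NC_exists_der hy) hd h')
    have h2 : ¬ Dep (x * y) w := by
      intro h'
      apply hw
      exact Dep.trans (NC_exists_der hxy) ((Dep.self x).mul_right hd) h'
    have h3 : ¬ Dep x (y * w) := by
      intro h'
      apply hw
      have := Dep.div_right hy0 h' hd
      have e : y * w / y = w := by field_simp
      rwa [e] at this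
    have hwNC := not_dep_NC_right (p := p) hw
    have e1 := G.mul_ind hτ' h2
    have e2 := G.mul_ind hτ' h3
    have e3 := G.mul_ind hτ' h1
    have e4 : x * y * w = x * (y * w) := by ring
    rw [e4, e2, e3] at e1
    have hw0 := G.ne0 w hwNC
    apply mul_right_cancel₀ hw0
    linear_combination -e1
  · exact G.mul_ind hτ' hd

lemma const_indep (hK : ∃ a b : K, ¬ Dep a b) (hτ' : Compat τ.symm) (G : GData τ n A) {f w₁ w₂ : K}
    (hf : cl p f = 0) (h₁ : cl p w₁ ≠ 0) (h₂ : cl p w₂ ≠ 0) :
    A (f + w₁) - A w₁ = A (f + w₂) - A w₂ := by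
  have hf' := (cl_eq_zero_iff f).mp hf
  have key : ∀ u v : K, ¬ Dep u v → A (f + u) - A u = A (f + v) - A v := by
    intro u v huv
    have e1 : ¬ Dep (f + u) v := fun h' => huv ((dep_add_const_iff hf').mp h')
    have e2 : ¬ Dep u (f + v) := fun h' => huv ((dep_add_const_iff hf').mp h'.symm).symm
    have e3 := (G.add_div hτ' e1).1
    have e4 := (G.add_div hτ' e2).1
    have e5 : f + u + v = u + (f + v) := by ring
    rw [e5, e4] at e3
    linear_combination -e3
  by_cases hd : Dep w₁ w₂
  · obtain ⟨w₃, hw⟩ := exists_partner hK h₁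
    have h2 : ¬ Dep w₂ w₃ := fun h' => hw (Dep.trans (NC_exists_der h₂) hd h')
    rw [key _ _ hw, key _ _ h2]
  · exact key _ _ hd

end GData

open GData in
/-- The ring homomorphism produced from the data. -/
theorem exists_ringHom_of_gdata (hK : ∃ a b : K, ¬ Dep a b) (hτ' : Compat τ.symm)
    (G : GData τ n A) : ∃ α : K →+* L, ∀ u : K, cl p (α u) = n • τ (cl p u) := by
  classical
  obtain ⟨a₀, b₀, hab⟩ := id hK
  have hw₀ := not_dep_NC_left (p := p) hab
  obtain ⟨α, hα⟩ : ∃ α : K → L, α = fun x => if cl p x = 0 then A (x + a₀) - A a₀ else A x :=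
    ⟨_, rfl⟩
  have hα1 : ∀ x, cl p x ≠ 0 → α x = A x := by
    intro x hx
    rw [hα]
    simp only [if_neg hx]
  have hα2 : ∀ f w, cl p f = 0 → cl p w ≠ 0 → α f = A (f + w) - A w := by
    intro f w hf hw
    rw [hα]
    simp only [if_pos hf]
    exact G.const_indep hK hτ' hf hw₀ hw
  have hadd : ∀ x y, α (x + y) = α x + α y := by
    intro x y
    by_cases hx : cl p x = 0
    · by_cases hy : cl p y = 0
      · -- both constant
        have hxc := (cl_eq_zero_iff x).mp hx
        have hyc := (cl_eq_zero_iff y).mp hy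
        have hxy : cl p (x + y) = 0 := by
          rw [cl_eq_zero_iff]
          intro D
          rw [Derivation.map_add, hxc, hyc, add_zero]
        have hyw : cl p (y + a₀) ≠ 0 := NC_add_const hy hw₀
        rw [hα2 _ a₀ hxy hw₀, hα2 x (y + a₀) hx hyw, hα2 y a₀ hy hw₀]
        have : x + y + a₀ = x + (y + a₀) := by ring
        rw [this]
        ring
      · have hxy : cl p (x + y) ≠ 0 := NC_add_const hx hy
        rw [hα1 _ hxy, hα1 y hy, hα2 x y hx hy]
        ring
    · by_cases hy : cl p y = 0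
      · have hxy : cl p (x + y) ≠ 0 := by
          rw [add_comm]; exact NC_add_const hy hx
        rw [hα1 _ hxy, hα1 x hx, hα2 y x hy hx, add_comm y x]
        ring
      · by_cases hxy : cl p (x + y) = 0
        · -- x, y nonconstant, the sum constant
          obtain ⟨w, hw⟩ := exists_partner hK hx
          have hdxy : Dep x y := by
            have hc := (cl_eq_zero_iff _).mp hxy
            intro D D'
            have h1 := hc D
            have h2 := hc D'
            rw [Derivation.map_add] at h1 h2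
            have h3 : D y = - D x := by linear_combination h1
            have h4 : D' y = - D' x := by linear_combination h2
            rw [h3, h4]
            ring
          have h1 : ¬ Dep y w := fun h' => hw (Dep.trans (NC_exists_der hy) hdxy h')
          have hwNC := not_dep_NC_right (p := p) hw
          have hyw := not_dep_add_NC (p := p) h1
          have hxyw : cl p (x + (y + w)) ≠ 0 := by
            have : x + (y + w) = (x + y) + w := by ring
            rw [this]
            exact NC_add_const hxy hwNC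
          rw [hα2 _ w hxy hwNC, hα1 x hx, hα1 y hy]
          have e1 := G.add_of_NC hK hτ' hx hyw hxyw
          have e2 := G.add_of_NC hK hτ' hy hwNC hyw
          have e3 : x + y + w = x + (y + w) := by ring
          rw [e3, e1, e2]
          ring
        · rw [hα1 _ hxy, hα1 x hx, hα1 y hy]
          exact G.add_of_NC hK hτ' hx hy hxy
  have hzero : α 0 = 0 := by
    have := hadd 0 0
    rw [add_zero] at this
    exact left_eq_add.mp this
  have hone : α 1 = 1 := by
    rw [hα2 1 a₀ cl_one hw₀, G.one_add hK hτ' hw₀]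
    ring
  have hK1 : ∀ f w, cl p f = 0 → f ≠ 0 → cl p w ≠ 0 → A w * A (f / w) = α f := by
    intro f w hf hf0 hw
    have hw0 : w ≠ 0 := by
      rintro rfl
      simp at hw
    have hfc := (cl_eq_zero_iff f).mp hf
    obtain ⟨D, hD⟩ := NC_exists_der hw
    have hdiv : cl p (f / w) ≠ 0 := by
      intro e
      have h1 := (cl_eq_zero_iff _).mp e D
      rw [Derivation.leibniz_div, hfc D] at h1
      simp only [smul_eq_mul] at h1
      have h2 : w⁻¹ ^ 2 * (f * D w) = 0 := by linear_combination -h1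
      have h3 := (mul_eq_zero.mp h2).resolve_left (pow_ne_zero 2 (inv_ne_zero hw0))
      exact (mul_ne_zero hf0 hD) h3
    have h1NC : cl p (1 + f / w) ≠ 0 := by
      intro e
      rw [cl_eq_zero_iff] at e
      apply hdiv
      rw [cl_eq_zero_iff]
      intro D'
      rw [← der_one_add, e]
    have hprod : f + w = w * (1 + f / w) := by field_simp; ring
    have hsum : cl p (f + w) ≠ 0 := NC_add_const hf hw
    have e1 := G.mul_of_NC hK hτ' hw h1NC (by rw [← hprod]; exact hsum)
    rw [← hprod, G.one_add hK hτ' hdiv] at e1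
    rw [hα2 f w hf hw, e1]
    ring
  have hK2 : ∀ f w, cl p f = 0 → f ≠ 0 → cl p w ≠ 0 → A (f * w) = α f * A w := by
    intro f w hf hf0 hw
    have hwi : cl p w⁻¹ ≠ 0 := by rw [cl_inv]; exact neg_ne_zero.mpr hw
    have hw0 : w ≠ 0 := by
      rintro rfl
      simp at hw
    have h1 := hK1 f w⁻¹ hf hf0 hwi
    have e : f / w⁻¹ = f * w := by field_simp
    rw [e, G.inv hw] at h1
    rw [← h1]
    have := G.ne0 w hw
    field_simp
  have hNCmul : ∀ f w : K, cl p f = 0 → f ≠ 0 → cl p w ≠ 0 → cl p (f * w) ≠ 0 := by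
    intro f w hf hf0 hw
    rw [cl_mul hf0 (by rintro rfl; simp at hw), hf, zero_add]
    exact hw
  have hmul : ∀ x y, α (x * y) = α x * α y := by
    intro x y
    by_cases hx0 : x = 0
    · subst hx0; simp [hzero]
    by_cases hy0 : y = 0
    · subst hy0; simp [hzero]
    by_cases hx : cl p x = 0
    · by_cases hy : cl p y = 0
      · have hxy : cl p (x * y) = 0 := by rw [cl_mul hx0 hy0, hx, hy, add_zero]
        have h1 := hK2 (x * y) a₀ hxy (mul_ne_zero hx0 hy0) hw₀
        have h2 := hK2 y a₀ hy hy0 hw₀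
        have h3 := hK2 x (y * a₀) hx hx0 (hNCmul y a₀ hy hy0 hw₀)
        have e : x * y * a₀ = x * (y * a₀) := by ring
        rw [e, h3, h2] at h1
        apply mul_right_cancel₀ (G.ne0 a₀ hw₀)
        linear_combination -h1
      · have hxy := hNCmul x y hx hx0 hy
        rw [hα1 _ hxy, hα1 y hy]
        exact hK2 x y hx hx0 hy
    · by_cases hy : cl p y = 0
      · have hxy := hNCmul y x hy hy0 hx
        rw [mul_comm] at hxy
        rw [hα1 _ hxy, hα1 x hx, mul_comm x y, mul_comm (A x)]
        exact hK2 y x hy hy0 hx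
      · by_cases hxy : cl p (x * y) = 0
        · rw [hα1 x hx, hα1 y hy]
          have := hK1 (x * y) x hxy (mul_ne_zero hx0 hy0) hx
          have e : x * y / x = y := by field_simp
          rw [e] at this
          exact this.symm
        · rw [hα1 _ hxy, hα1 x hx, hα1 y hy]
          exact G.mul_of_NC hK hτ' hx hy hxy
  let αh : K →+* L :=
    { toFun := α
      map_one' := hone
      map_mul' := hmul
      map_zero' := hzero
      map_add' := hadd }
  refine ⟨αh, fun u => ?_⟩
  by_cases hu : cl p u = 0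
  · obtain ⟨e, he⟩ := exists_pow_of_const (p := p) ((cl_eq_zero_iff u).mp hu)
    rw [hu, map_zero, nsmul_zero, ← he, map_pow]
    exact cl_pow_char _
  · change cl p (α u) = _
    rw [hα1 u hu]
    exact G.cl1 u hu

/-- The main proposition: a compatible `τ` comes from a field isomorphism, up to a scalar. -/
theorem exists_ringEquiv {τ : V K p ≃+ V L p} (hτ : Compat τ) (hτ' : Compat τ.symm)
    (hK : ∃ a b : K, ¬ Dep a b) (hL : ∃ a b : L, ¬ Dep a b) :
    ∃ n : ℕ, (n : L) ≠ 0 ∧ ∃ α : K ≃+* L, ∀ u : K, cl p (α u) = n • τ (cl p u) := by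
  obtain ⟨n, A, G⟩ := exists_gdata hτ hτ' hK
  obtain ⟨α₁, h₁⟩ := exists_ringHom_of_gdata hK hτ' G
  have hτ'' : Compat τ.symm.symm := hτ
  obtain ⟨m, B, G'⟩ := exists_gdata hτ' hτ'' hL
  obtain ⟨α₂, h₂⟩ := exists_ringHom_of_gdata hL hτ'' G'
  have hcast : ∀ k : ℕ, (k : L) ≠ 0 ↔ (k : K) ≠ 0 := by
    intro k
    rw [Ne, Ne, CharP.cast_eq_zero_iff L p, CharP.cast_eq_zero_iff K p]
  have hnK : (n : K) ≠ 0 := (hcast n).mp G.hn
  have hmK : (m : K) ≠ 0 := G'.hn
  have hnL : (n : L) ≠ 0 := G.hn
  have hmL : (m : L) ≠ 0 := (hcast m).mpr G'.hn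
  have hid₁ : ∀ u : K, α₂ (α₁ u) = u := by
    apply self_map_id (p := p) hK (α₂.comp α₁) (m := m * n)
    · rw [Nat.cast_mul]; exact mul_ne_zero hmK hnK
    · intro u
      simp only [RingHom.comp_apply]
      rw [h₂, h₁, map_nsmul, AddEquiv.symm_apply_apply, mul_nsmul']
  have hid₂ : ∀ u : L, α₁ (α₂ u) = u := by
    apply self_map_id (p := p) hL (α₁.comp α₂) (m := n * m)
    · rw [Nat.cast_mul]; exact mul_ne_zero hnL hmL
    · intro u
      simp only [RingHom.comp_apply]
      rw [h₁, h₂, map_nsmul, AddEquiv.apply_symm_apply, mul_nsmul']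
  exact ⟨n, hnL, RingEquiv.ofRingHom α₁ α₂ (by ext u; exact hid₂ u) (by ext u; exact hid₁ u),
    fun u => h₁ u⟩

end GD

end Crest.Agent.S0010Lib
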